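import Vale.Agent.Results.P046.FPlusIsolated

open Finset

namespace Vale.Agent.Results.P046.AStageExcess

open Vale.Agent.Results.P046.FPlusIsolated

variable {n : ℕ}

/-- `stage f k G` is the expected value of `f` on the graph reached after `k` steps of the
triangle removal process started from `G` (the process stays put once no triangle is left):
first-step recursion. -/
noncomputable def stage (f : Finset (Sym2 (Fin n)) → ℝ) : ℕ → Finset (Sym2 (Fin n)) → ℝ
  | 0, G => f G
  | k + 1, G =>
    if (tri G).Nonempty then (∑ t ∈ tri G, stage f k (G \ edges t)) / ((tri G).card : ℝ)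
    else f G

/-- The excess of triangles over a third of the edges: `X = T - E/3`. -/
noncomputable def excess (G : Finset (Sym2 (Fin n))) : ℝ :=
  ((tri G).card : ℝ) - (G.card : ℝ) / 3

/-- The variance term `V/T`, `V = ∑ y² - 9T²/E`, where `y` is the number of triangles on an
edge (zero if `G` has no triangle). It is `E/T` times the variance of `y` over the edges. -/
noncomputable def fano (G : Finset (Sym2 (Fin n))) : ℝ :=
  (∑ e ∈ G, (load G e : ℝ) ^ 2) / ((tri G).card : ℝ) - 9 * ((tri G).card : ℝ) / (G.card : ℝ)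

/-- The polynomial `R x = x (x-3) (x-6)`. -/
def R (x : ℝ) : ℝ := x * (x - 3) * (x - 6)

lemma R_pos {x : ℝ} (h : 9 ≤ x) : 0 < R x := by
  unfold R
  have h1 : 0 < x := by linarith
  have h2 : 0 < x - 3 := by linarith
  have h3 : 0 < x - 6 := by linarith
  positivity

lemma R_mono {x y : ℝ} (h : 9 ≤ x) (hxy : x ≤ y) : R x ≤ R y := by
  unfold R
  have h1 : 0 ≤ x := by linarith
  have h2 : 0 ≤ x - 3 := by linarith
  have h3 : 0 ≤ x - 6 := by linarith
  have h4 : x - 3 ≤ y - 3 := by linarith
  have h5 : x - 6 ≤ y - 6 := by linarith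
  exact mul_le_mul (mul_le_mul hxy h4 h2 (by linarith)) h5 h3 (mul_nonneg (by linarith) (by linarith))

lemma R_window {x y : ℝ} (h : 9 ≤ x) (hxy : x ≤ y) (hy : y ≤ 2 * x) : R y ≤ 24 * R x := by
  have h1 : y ≤ 2 * x := hy
  have h2 : y - 3 ≤ 3 * (x - 3) := by linarith
  have h3 : y - 6 ≤ 4 * (x - 6) := by linarith
  have h4 : 0 ≤ y := by linarith
  have h5 : 0 ≤ y - 3 := by linarith
  have h6 : 0 ≤ y - 6 := by linarith
  have h7 : 0 ≤ x - 3 := by linarith
  have h8 : 0 ≤ x - 6 := by linarith
  have h9 : y * (y - 3) ≤ (2 * x) * (3 * (x - 3)) :=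
    mul_le_mul h1 h2 h5 (by linarith)
  have h10 : y * (y - 3) * (y - 6) ≤ (2 * x) * (3 * (x - 3)) * (4 * (x - 6)) :=
    mul_le_mul h9 h3 h6 (mul_nonneg (by linarith) (by linarith))
  unfold R
  nlinarith [h10]

lemma R_step {E : ℝ} (h : 9 ≤ E) : R (E - 3) / R E = 1 - 9 / E := by
  have h1 : E ≠ 0 := by linarith
  have h2 : E - 3 ≠ 0 := by linarith
  have h3 : E - 6 ≠ 0 := by linarith
  unfold R
  rw [show (E - 3) * (E - 3 - 3) * (E - 3 - 6) = (E - 3) * (E - 6) * (E - 9) by ring]
  field_simp

/-! ## Double counting -/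

lemma edges_subset {G : Finset (Sym2 (Fin n))} {t : Finset (Fin n)} (ht : t ∈ tri G) :
    edges t ⊆ G := (mem_filter.mp ht).2

lemma sum_edges_eq (G : Finset (Sym2 (Fin n))) (w : Sym2 (Fin n) → ℝ) :
    ∑ t ∈ tri G, ∑ f ∈ edges t, w f = ∑ f ∈ G, (load G f : ℝ) * w f := by
  classical
  have h1 : ∀ t ∈ tri G, ∑ f ∈ edges t, w f = ∑ f ∈ G, if f ∈ edges t then w f else 0 := by
    intro t ht
    rw [← sum_filter]
    refine sum_congr ?_ (fun _ _ => rfl)
    ext f
    simp only [mem_filter]
    exact ⟨fun h => ⟨edges_subset ht h, h⟩, fun h => h.2⟩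
  rw [sum_congr rfl h1, sum_comm]
  refine sum_congr rfl (fun f _ => ?_)
  rw [← sum_filter, sum_const, nsmul_eq_mul, load]

lemma sum_load (G : Finset (Sym2 (Fin n))) : ∑ f ∈ G, (load G f : ℝ) = 3 * ((tri G).card : ℝ) := by
  have h := sum_edges_eq G (fun _ => 1)
  simp only [mul_one] at h
  rw [← h]
  have h3 : ∀ t ∈ tri G, ∑ f ∈ edges t, (1 : ℝ) = 3 := by
    intro t ht
    rw [sum_const, nsmul_eq_mul, card_edges_of_mem_tri ht]
    norm_num
  rw [sum_congr rfl h3, sum_const, nsmul_eq_mul]
  ring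

lemma sum_sum_load (G : Finset (Sym2 (Fin n))) :
    ∑ t ∈ tri G, ∑ f ∈ edges t, (load G f : ℝ) = ∑ f ∈ G, (load G f : ℝ) ^ 2 := by
  rw [sum_edges_eq G (fun f => (load G f : ℝ))]
  exact sum_congr rfl (fun f _ => by ring)

lemma inter_card {G : Finset (Sym2 (Fin n))} {s t : Finset (Fin n)} (hs : s ∈ tri G)
    (ht : t ∈ tri G) :
    (((edges s) ∩ (edges t)).card : ℝ) =
      (if Disjoint (edges s) (edges t) then 0 else 1) + (if s = t then 2 else 0) := by
  classical
  by_cases hst : s = t
  · subst hst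
    have h3 := card_edges_of_mem_tri ht
    have hne : (edges s).Nonempty := by
      rw [← card_pos]; omega
    have hnd : ¬ Disjoint (edges s) (edges s) := by
      rw [disjoint_self]
      exact hne.ne_empty
    rw [inter_self, h3, if_neg hnd, if_pos rfl]
    norm_num
  · rw [if_neg hst, add_zero]
    by_cases hd : Disjoint (edges s) (edges t)
    · rw [if_pos hd, disjoint_iff_inter_eq_empty.mp hd]
      simp
    · rw [if_neg hd]
      have hle : ((edges s) ∩ (edges t)).card ≤ 1 := by
        rw [card_le_one]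
        intro f hf g hg
        rw [mem_inter] at hf hg
        exact edges_linear (card_of_mem_tri hs) (card_of_mem_tri ht) hst f g hf.1 hf.2 hg.1 hg.2
      have hpos : 0 < ((edges s) ∩ (edges t)).card := by
        rw [card_pos]
        rw [disjoint_iff_inter_eq_empty] at hd
        exact nonempty_iff_ne_empty.mpr hd
      have : ((edges s) ∩ (edges t)).card = 1 := by omega
      rw [this]
      norm_num

lemma card_tri_sdiff {G : Finset (Sym2 (Fin n))} {t : Finset (Fin n)} (ht : t ∈ tri G) :
    ((tri (G \ edges t)).card : ℝ) =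
      ((tri G).card : ℝ) + 2 - ∑ f ∈ edges t, (load G f : ℝ) := by
  classical
  have h1 : ∑ f ∈ edges t, (load G f : ℝ)
      = ∑ s ∈ tri G, (((edges s) ∩ (edges t)).card : ℝ) := by
    have hl : ∀ f ∈ edges t, (load G f : ℝ) = ∑ s ∈ tri G, if f ∈ edges s then (1 : ℝ) else 0 := by
      intro f _
      rw [load, card_filter]
      push_cast
      rfl
    rw [sum_congr rfl hl, sum_comm]
    refine sum_congr rfl (fun s _ => ?_)
    rw [← sum_filter, sum_const, nsmul_eq_mul, mul_one]
    congr 2
    ext f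
    simp only [mem_filter, mem_inter]
    tauto
  have h2 : ((tri (G \ edges t)).card : ℝ)
      = ∑ s ∈ tri G, if Disjoint (edges s) (edges t) then (1 : ℝ) else 0 := by
    rw [tri_sdiff, cut, card_filter]
    push_cast
    rfl
  have h3 : ∑ s ∈ tri G, (if s = t then (2 : ℝ) else 0) = 2 := by
    rw [sum_ite_eq' (tri G) t (fun _ => (2 : ℝ)), if_pos ht]
  have h4 : ((tri G).card : ℝ) = ∑ _s ∈ tri G, (1 : ℝ) := by simp
  rw [h1, h2, sum_congr rfl (fun s hs => inter_card hs ht), sum_add_distrib, h3]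
  have h5 : ∑ s ∈ tri G, (if Disjoint (edges s) (edges t) then (1 : ℝ) else 0)
      + ∑ s ∈ tri G, (if Disjoint (edges s) (edges t) then (0 : ℝ) else 1)
      = ((tri G).card : ℝ) := by
    rw [h4, ← sum_add_distrib]
    refine sum_congr rfl (fun s _ => ?_)
    split_ifs <;> norm_num
  linarith

lemma card_sdiff_edges {G : Finset (Sym2 (Fin n))} {t : Finset (Fin n)} (ht : t ∈ tri G) :
    ((G \ edges t).card : ℝ) = (G.card : ℝ) - 3 := by
  have h3 := card_edges_of_mem_tri ht
  have hsub := edges_subset ht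
  have hle := card_le_card hsub
  rw [card_sdiff_of_subset hsub, h3]
  rw [h3] at hle
  push_cast [hle]
  ring

lemma card_sdiff_edges' {G : Finset (Sym2 (Fin n))} {t : Finset (Fin n)} (ht : t ∈ tri G) :
    (G \ edges t).card + 3 = G.card := by
  have h3 := card_edges_of_mem_tri ht
  have hsub := edges_subset ht
  have hle := card_le_card hsub
  rw [card_sdiff_of_subset hsub, h3]
  rw [h3] at hle
  omega

lemma excess_step {G : Finset (Sym2 (Fin n))} {t : Finset (Fin n)} (ht : t ∈ tri G) :
    excess (G \ edges t) = excess G + 3 - ∑ f ∈ edges t, (load G f : ℝ) := by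
  unfold excess
  rw [card_tri_sdiff ht, card_sdiff_edges ht]
  ring

/-- The exact one-step identity `E[X'] = (1 - 9/E) X - V/T`. -/
lemma excess_avg {G : Finset (Sym2 (Fin n))} (hT : (tri G).Nonempty) :
    (∑ t ∈ tri G, excess (G \ edges t)) / ((tri G).card : ℝ)
      = (1 - 9 / (G.card : ℝ)) * excess G - fano G := by
  have hTpos : (0 : ℝ) < ((tri G).card : ℝ) := by exact_mod_cast card_pos.mpr hT
  obtain ⟨t0, ht0⟩ := hT
  have hE : (0 : ℝ) < (G.card : ℝ) := by
    have : 3 ≤ G.card := by
      have h3 := card_edges_of_mem_tri ht0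
      have hle := card_le_card (edges_subset ht0)
      omega
    exact_mod_cast (by omega : 0 < G.card)
  rw [sum_congr rfl (fun t ht => excess_step ht), sum_sub_distrib, sum_const, nsmul_eq_mul,
    sum_sum_load]
  unfold fano excess
  field_simp
  ring

lemma fano_nonneg (G : Finset (Sym2 (Fin n))) : 0 ≤ fano G := by
  by_cases hT : (tri G).Nonempty
  · have hTpos : (0 : ℝ) < ((tri G).card : ℝ) := by exact_mod_cast card_pos.mpr hT
    obtain ⟨t0, ht0⟩ := hT
    have hE : (0 : ℝ) < (G.card : ℝ) := by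
      have : 3 ≤ G.card := by
        have h3 := card_edges_of_mem_tri ht0
        have hle := card_le_card (edges_subset ht0)
        omega
      exact_mod_cast (by omega : 0 < G.card)
    have hC : (∑ f ∈ G, (load G f : ℝ)) ^ 2 ≤ (G.card : ℝ) * ∑ f ∈ G, (load G f : ℝ) ^ 2 :=
      sq_sum_le_card_mul_sum_sq
    rw [sum_load] at hC
    unfold fano
    rw [sub_nonneg, div_le_div_iff₀ hE hTpos]
    nlinarith
  · have h0 : (tri G).card = 0 := by
      rw [card_eq_zero]
      exact not_nonempty_iff_eq_empty.mp hT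
    unfold fano
    rw [h0]
    simp

lemma stage_fano_nonneg (j : ℕ) : ∀ G : Finset (Sym2 (Fin n)), 0 ≤ stage fano j G := by
  induction j with
  | zero => intro G; exact fano_nonneg G
  | succ j ih =>
    intro G
    rw [stage]
    split_ifs
    · exact div_nonneg (sum_nonneg (fun t _ => ih _)) (Nat.cast_nonneg _)
    · exact fano_nonneg G

lemma stage_of_empty (f : Finset (Sym2 (Fin n)) → ℝ) {G : Finset (Sym2 (Fin n))}
    (hT : ¬ (tri G).Nonempty) (j : ℕ) : stage f j G = f G := by
  cases j with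
  | zero => rfl
  | succ j => rw [stage, if_neg hT]

lemma fano_of_empty {G : Finset (Sym2 (Fin n))} (hT : ¬ (tri G).Nonempty) : fano G = 0 := by
  have h0 : (tri G).card = 0 := by
    rw [card_eq_zero]
    exact not_nonempty_iff_eq_empty.mp hT
  unfold fano
  rw [h0]
  simp

/-! ## The final number of edges dominates `-3 X` at every stage -/

lemma leave_aux : ∀ (m : ℕ) (G : Finset (Sym2 (Fin n))), G.card = m → -3 * excess G ≤ expF G := by
  intro m
  induction m using Nat.strong_induction_on with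
  | _ m ih =>
    intro G hG
    rw [expF_eq]
    split_ifs with hT
    · have hTpos : (0 : ℝ) < ((tri G).card : ℝ) := by exact_mod_cast card_pos.mpr hT
      rw [le_div_iff₀ hTpos]
      have hb : ∀ t ∈ tri G, -3 * excess G ≤ expF (G \ edges t) := by
        intro t ht
        have h1 := ih (G \ edges t).card (by
          have := card_sdiff_edges' ht
          omega) (G \ edges t) rfl
        have h2 : excess (G \ edges t) ≤ excess G := by
          rw [excess_step ht]
          have h3 : (3 : ℝ) ≤ ∑ f ∈ edges t, (load G f : ℝ) := by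
            have h4 : ∀ f ∈ edges t, (1 : ℝ) ≤ (load G f : ℝ) := by
              intro f hf
              have : 0 < load G f := card_pos.mpr ⟨t, mem_filter.mpr ⟨ht, hf⟩⟩
              exact_mod_cast this
            have h5 := sum_le_sum h4
            rw [sum_const, nsmul_eq_mul, card_edges_of_mem_tri ht] at h5
            norm_num at h5
            exact h5
          linarith
        linarith
      have hs := sum_le_sum hb
      rw [sum_const, nsmul_eq_mul] at hs
      linarith
    · have h0 : (tri G).card = 0 := by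
        rw [card_eq_zero]
        exact not_nonempty_iff_eq_empty.mp hT
      unfold excess
      rw [h0]
      push_cast
      linarith

lemma leave_stage (k : ℕ) : ∀ G : Finset (Sym2 (Fin n)), -3 * stage excess k G ≤ expF G := by
  induction k with
  | zero => intro G; exact leave_aux _ G rfl
  | succ k ih =>
    intro G
    rw [stage, expF_eq]
    split_ifs with hT
    · have hTpos : (0 : ℝ) < ((tri G).card : ℝ) := by exact_mod_cast card_pos.mpr hT
      rw [← mul_div_assoc, div_le_div_iff_of_pos_right hTpos, mul_sum]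
      exact sum_le_sum (fun t _ => ih _)
    · have := leave_aux _ G rfl
      rw [expF_eq, if_neg hT] at this
      exact this

/-! ## The stage inequality -/

/-- The stage inequality, for a general starting graph. -/
theorem stage_excess_le (k : ℕ) : ∀ G : Finset (Sym2 (Fin n)), 3 * k + 9 ≤ G.card →
    stage excess k G ≤ R ((G.card : ℝ) - 3 * k) / R (G.card : ℝ) * excess G
      - ∑ j ∈ range k, R ((G.card : ℝ) - 3 * k) / R ((G.card : ℝ) - 3 * ((j : ℝ) + 1))
          * stage fano j G := by
  induction k with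
  | zero =>
    intro G hG
    have hE : (9 : ℝ) ≤ (G.card : ℝ) := by exact_mod_cast (by omega : 9 ≤ G.card)
    simp only [Nat.cast_zero, mul_zero, sub_zero, range_zero, sum_empty]
    rw [div_self (R_pos hE).ne']
    simp [stage]
  | succ k ih =>
    intro G hG
    set E : ℝ := (G.card : ℝ) with hEdef
    have hE : (9 : ℝ) ≤ E := by
      rw [hEdef]; exact_mod_cast (by omega : 9 ≤ G.card)
    have hEk : (9 : ℝ) ≤ E - 3 * ((k + 1 : ℕ) : ℝ) := by
      have : ((3 * (k + 1) + 9 : ℕ) : ℝ) ≤ (G.card : ℝ) := by exact_mod_cast hG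
      push_cast at this ⊢
      rw [hEdef]
      linarith
    by_cases hT : (tri G).Nonempty
    · have hTpos : (0 : ℝ) < ((tri G).card : ℝ) := by exact_mod_cast card_pos.mpr hT
      set a : ℝ := R (E - 3 * ((k : ℝ) + 1)) / R (E - 3) with ha
      set b : ℕ → ℝ := fun j => R (E - 3 * ((k : ℝ) + 1)) / R (E - 3 * ((j : ℝ) + 2)) with hb
      have hstep : ∀ t ∈ tri G, stage excess k (G \ edges t)
          ≤ a * excess (G \ edges t) - ∑ j ∈ range k, b j * stage fano j (G \ edges t) := by
        intro t ht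
        have hcard := card_sdiff_edges' ht
        have hcast := card_sdiff_edges ht
        have := ih (G \ edges t) (by omega)
        rw [hcast] at this
        have e1 : (G.card : ℝ) - 3 - 3 * (k : ℝ) = E - 3 * ((k : ℝ) + 1) := by rw [hEdef]; ring
        rw [e1] at this
        have e2 : ∀ j : ℕ, E - 3 - 3 * ((j : ℝ) + 1) = E - 3 * ((j : ℝ) + 2) := by
          intro j; ring
        have e3 : (G.card : ℝ) - 3 = E - 3 := by rw [hEdef]
        simp only [e3] at this
        simp only [e2] at this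
        exact this
      have hsum := sum_le_sum hstep
      rw [sum_sub_distrib, ← mul_sum] at hsum
      have hswap : ∑ t ∈ tri G, ∑ j ∈ range k, b j * stage fano j (G \ edges t)
          = ∑ j ∈ range k, b j * ∑ t ∈ tri G, stage fano j (G \ edges t) := by
        rw [sum_comm]
        exact sum_congr rfl (fun j _ => (mul_sum _ _ _).symm)
      rw [hswap] at hsum
      have hav := excess_avg hT
      rw [← hEdef] at hav
      have hfan : ∀ j : ℕ, ∑ t ∈ tri G, stage fano j (G \ edges t)
          = stage fano (j + 1) G * ((tri G).card : ℝ) := by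
        intro j
        rw [stage, if_pos hT]
        field_simp
      have hsumex : ∑ t ∈ tri G, excess (G \ edges t)
          = ((1 - 9 / E) * excess G - fano G) * ((tri G).card : ℝ) := by
        rw [← hav]
        field_simp
      rw [hsumex] at hsum
      simp only [hfan] at hsum
      have hfac : ∑ j ∈ range k, b j * (stage fano (j + 1) G * ((tri G).card : ℝ))
          = (∑ j ∈ range k, b j * stage fano (j + 1) G) * ((tri G).card : ℝ) := by
        rw [sum_mul]
        exact sum_congr rfl (fun j _ => by ring)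
      rw [hfac, ← mul_assoc, ← sub_mul] at hsum
      rw [stage, if_pos hT, div_le_iff₀ hTpos]
      have hfin : a * ((1 - 9 / E) * excess G - fano G)
            - ∑ j ∈ range k, b j * stage fano (j + 1) G
          = R (E - 3 * ((k + 1 : ℕ) : ℝ)) / R E * excess G
            - ∑ j ∈ range (k + 1),
                R (E - 3 * ((k + 1 : ℕ) : ℝ)) / R (E - 3 * ((j : ℝ) + 1)) * stage fano j G := by
        rw [sum_range_succ']
        have hk : E - 3 * ((k + 1 : ℕ) : ℝ) = E - 3 * ((k : ℝ) + 1) := by push_cast; ring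
        rw [hk]
        have h0 : stage fano 0 G = fano G := rfl
        have hc0 : R (E - 3 * ((k : ℝ) + 1)) / R (E - 3 * (((0 : ℕ) : ℝ) + 1)) = a := by
          rw [ha]
          congr 2
          push_cast
          ring
        rw [hc0, h0]
        have hcj : ∀ j ∈ range k,
            R (E - 3 * ((k : ℝ) + 1)) / R (E - 3 * (((j + 1 : ℕ) : ℝ) + 1)) * stage fano (j + 1) G
              = b j * stage fano (j + 1) G := by
          intro j _
          rw [hb]
          simp only
          congr 2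
          push_cast
          ring_nf
        rw [sum_congr rfl hcj]
        have hR : a * (1 - 9 / E) = R (E - 3 * ((k : ℝ) + 1)) / R E := by
          rw [ha, ← R_step hE]
          have h1 := (R_pos hE).ne'
          have h2 : R (E - 3) ≠ 0 := (R_pos (by
            have : (0 : ℝ) ≤ (k : ℝ) := Nat.cast_nonneg _
            push_cast at hEk
            linarith)).ne'
          field_simp
        rw [← hR]
        ring
      rw [← hfin]
      linarith
    · rw [stage_of_empty _ hT]
      have hz : ∀ j ∈ range (k + 1),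
          R (E - 3 * ((k + 1 : ℕ) : ℝ)) / R (E - 3 * ((j : ℝ) + 1)) * stage fano j G = 0 := by
        intro j _
        rw [stage_of_empty _ hT, fano_of_empty hT, mul_zero]
      rw [sum_eq_zero hz, sub_zero]
      have hX : excess G ≤ 0 := by
        have h0 : (tri G).card = 0 := by
          rw [card_eq_zero]
          exact not_nonempty_iff_eq_empty.mp hT
        unfold excess
        rw [h0]
        have : (0 : ℝ) ≤ (G.card : ℝ) := Nat.cast_nonneg _
        push_cast
        linarith
      have hr1 : R (E - 3 * ((k + 1 : ℕ) : ℝ)) / R E ≤ 1 := by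
        rw [div_le_one (R_pos hE)]
        refine R_mono hEk ?_
        have : (0 : ℝ) ≤ ((k + 1 : ℕ) : ℝ) := Nat.cast_nonneg _
        linarith
      nlinarith

/-! ## The complete graph -/

lemma card_top (n : ℕ) : (edges (univ : Finset (Fin n))).card = n.choose 2 := by
  rw [card_edges, card_univ, Fintype.card_fin]

lemma card_tri_top (n : ℕ) : (tri (edges (univ : Finset (Fin n)))).card = n.choose 3 := by
  rw [tri_top, card_powersetCard, card_univ, Fintype.card_fin]

lemma excess_top (n : ℕ) (hn : 2 ≤ n) :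
    excess (edges (univ : Finset (Fin n))) = (n.choose 2 : ℝ) * ((n : ℝ) - 3) / 3 := by
  unfold excess
  rw [card_top, card_tri_top]
  have h := Nat.choose_succ_right_eq n 2
  have h' : ((n.choose 3 : ℕ) : ℝ) * 3 = (n.choose 2 : ℝ) * ((n : ℝ) - 2) := by
    have : ((n.choose 3 * 3 : ℕ) : ℝ) = ((n.choose 2 * (n - 2) : ℕ) : ℝ) := by exact_mod_cast h
    rw [Nat.cast_mul, Nat.cast_mul, Nat.cast_sub hn] at this
    exact_mod_cast this
  nlinarith

lemma top_bound (n k : ℕ) (hn : 17 ≤ n) (hk : 3 * k + 9 ≤ n.choose 2) :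
    R ((n.choose 2 : ℝ) - 3 * k) / R (n.choose 2 : ℝ) * ((n.choose 2 : ℝ) * ((n : ℝ) - 3))
      ≤ 4 * ((n.choose 2 : ℝ) - 3 * k) ^ 3 / (n : ℝ) ^ 3 := by
  set N : ℝ := (n.choose 2 : ℝ) with hN
  have hNn : N = (n : ℝ) * ((n : ℝ) - 1) / 2 := by
    rw [hN, Nat.cast_choose_two]
  have hn' : (17 : ℝ) ≤ (n : ℝ) := by exact_mod_cast hn
  have hE : (9 : ℝ) ≤ N - 3 * k := by
    have : ((3 * k + 9 : ℕ) : ℝ) ≤ N := by rw [hN]; exact_mod_cast hk
    push_cast at this
    linarith
  have hk0 : (0 : ℝ) ≤ (k : ℝ) := Nat.cast_nonneg _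
  have hN9 : (9 : ℝ) ≤ N := by linarith
  set x : ℝ := N - 3 * (k : ℝ) with hx
  have hxpos : 0 < x := by linarith
  have hn0 : 0 < (n : ℝ) := by linarith
  have hN1 : 0 < N - 3 := by linarith
  have hN2 : 0 < N - 6 := by linarith
  have hN0 : 0 < N := by linarith
  have hR : R x ≤ x ^ 3 := by
    unfold R
    have h1 : 0 ≤ x - 3 := by linarith
    have h2 : 0 ≤ x - 6 := by linarith
    have h3 : x * (x - 3) ≤ x * x := mul_le_mul_of_nonneg_left (by linarith) hxpos.le
    have h4 : x * (x - 3) * (x - 6) ≤ x * x * x :=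
      mul_le_mul h3 (by linarith) h2 (by positivity)
    calc x * (x - 3) * (x - 6) ≤ x * x * x := h4
      _ = x ^ 3 := by ring
  have hkey : ((n : ℝ) - 3) * (n : ℝ) ^ 3 ≤ 4 * ((N - 3) * (N - 6)) := by
    rw [hNn]
    nlinarith [mul_nonneg (mul_nonneg hn0.le hn0.le) (by linarith : (0 : ℝ) ≤ (n : ℝ) - 17)]
  have hRp : 0 ≤ R x := (R_pos hE).le
  have hn3 : (0 : ℝ) ≤ (n : ℝ) - 3 := by linarith
  have e : R x / R N * (N * ((n : ℝ) - 3)) = R x * ((n : ℝ) - 3) / ((N - 3) * (N - 6)) := by
    unfold R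
    field_simp
  rw [e, div_le_div_iff₀ (by positivity) (by positivity)]
  have h1 : R x * ((n : ℝ) - 3) * (n : ℝ) ^ 3 ≤ x ^ 3 * (((n : ℝ) - 3) * (n : ℝ) ^ 3) := by
    have := mul_le_mul_of_nonneg_right hR (by positivity : 0 ≤ ((n : ℝ) - 3) * (n : ℝ) ^ 3)
    nlinarith
  have h2 : x ^ 3 * (((n : ℝ) - 3) * (n : ℝ) ^ 3) ≤ x ^ 3 * (4 * ((N - 3) * (N - 6))) :=
    mul_le_mul_of_nonneg_left hkey (by positivity)
  nlinarith

/-- The hand-in: see the claim file. Write `E = G.card`, `R x = x (x-3) (x-6)`,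
`N = C(n,2)` and `K_n = edges univ`. -/
theorem result :
    (∀ (n : ℕ) (G : Finset (Sym2 (Fin n))), (tri G).Nonempty →
      (∑ t ∈ tri G, excess (G \ edges t)) / ((tri G).card : ℝ)
        = (1 - 9 / (G.card : ℝ)) * excess G - fano G) ∧
    (∀ (n : ℕ) (G : Finset (Sym2 (Fin n))) (j : ℕ), 0 ≤ stage fano j G) ∧
    (∀ (n : ℕ) (G : Finset (Sym2 (Fin n))) (k : ℕ), -3 * stage excess k G ≤ expF G) ∧
    (∀ (n : ℕ) (G : Finset (Sym2 (Fin n))) (k : ℕ), 3 * k + 9 ≤ G.card →
      stage excess k G ≤ R ((G.card : ℝ) - 3 * k) / R (G.card : ℝ) * excess G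
        - ∑ j ∈ range k, R ((G.card : ℝ) - 3 * k) / R ((G.card : ℝ) - 3 * ((j : ℝ) + 1))
            * stage fano j G) ∧
    (∀ (n k : ℕ), 17 ≤ n → 3 * k + 9 ≤ n.choose 2 →
      stage excess k (edges (univ : Finset (Fin n)))
        ≤ 4 / 3 * ((n.choose 2 : ℝ) - 3 * k) ^ 3 / (n : ℝ) ^ 3) ∧
    (∀ (n k : ℕ), 17 ≤ n → 3 * k + 9 ≤ n.choose 2 →
      3 * (∑ j ∈ range k, R ((n.choose 2 : ℝ) - 3 * k) / R ((n.choose 2 : ℝ) - 3 * ((j : ℝ) + 1))
            * stage fano j (edges (univ : Finset (Fin n))))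
        - 4 * ((n.choose 2 : ℝ) - 3 * k) ^ 3 / (n : ℝ) ^ 3
        ≤ expF (edges (univ : Finset (Fin n)))) ∧
    (∀ (n k k₁ : ℕ) (κ : ℝ), 17 ≤ n → 3 * k + 9 ≤ n.choose 2 → k₁ ≤ k →
      (n.choose 2 : ℝ) - 3 * k₁ ≤ 2 * ((n.choose 2 : ℝ) - 3 * k) → 0 ≤ κ →
      (∀ j, k₁ ≤ j → j < k → κ ≤ stage fano j (edges (univ : Finset (Fin n)))) →
      κ * ((k : ℝ) - k₁) / 8 - 4 * ((n.choose 2 : ℝ) - 3 * k) ^ 3 / (n : ℝ) ^ 3
        ≤ expF (edges (univ : Finset (Fin n)))) := by
  have main6 : ∀ (n k : ℕ), 17 ≤ n → 3 * k + 9 ≤ n.choose 2 →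
      3 * (∑ j ∈ range k, R ((n.choose 2 : ℝ) - 3 * k) / R ((n.choose 2 : ℝ) - 3 * ((j : ℝ) + 1))
            * stage fano j (edges (univ : Finset (Fin n))))
        - 4 * ((n.choose 2 : ℝ) - 3 * k) ^ 3 / (n : ℝ) ^ 3
        ≤ expF (edges (univ : Finset (Fin n))) := by
    intro n k hn hk
    have h1 := stage_excess_le k (edges (univ : Finset (Fin n))) (by rw [card_top]; exact hk)
    rw [card_top, excess_top n (by omega)] at h1
    have h2 := leave_stage k (edges (univ : Finset (Fin n)))
    have h3 := top_bound n k hn hk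
    have e : R ((n.choose 2 : ℝ) - 3 * k) / R (n.choose 2 : ℝ)
          * ((n.choose 2 : ℝ) * ((n : ℝ) - 3) / 3)
        = R ((n.choose 2 : ℝ) - 3 * k) / R (n.choose 2 : ℝ)
          * ((n.choose 2 : ℝ) * ((n : ℝ) - 3)) / 3 := by ring
    rw [e] at h1
    linarith
  refine ⟨fun n G hT => excess_avg hT, fun n G j => stage_fano_nonneg j G,
    fun n G k => leave_stage k G, fun n G k hk => stage_excess_le k G hk, ?_, main6, ?_⟩
  · intro n k hn hk
    have hG : 3 * k + 9 ≤ (edges (univ : Finset (Fin n))).card := by rw [card_top]; exact hk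
    have h1 := stage_excess_le k (edges (univ : Finset (Fin n))) hG
    rw [card_top, excess_top n (by omega)] at h1
    have h3 := top_bound n k hn hk
    have hE : (9 : ℝ) ≤ (n.choose 2 : ℝ) - 3 * k := by
      have : ((3 * k + 9 : ℕ) : ℝ) ≤ (n.choose 2 : ℝ) := by exact_mod_cast hk
      push_cast at this
      linarith
    have hnn : 0 ≤ ∑ j ∈ range k, R ((n.choose 2 : ℝ) - 3 * k)
          / R ((n.choose 2 : ℝ) - 3 * ((j : ℝ) + 1))
        * stage fano j (edges (univ : Finset (Fin n))) := by
      refine sum_nonneg (fun j hj => mul_nonneg (div_nonneg (R_pos hE).le ?_)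
        (stage_fano_nonneg j _))
      refine (R_pos ?_).le
      have hj' : j + 1 ≤ k := mem_range.mp hj
      have : ((j + 1 : ℕ) : ℝ) ≤ (k : ℝ) := by exact_mod_cast hj'
      push_cast at this
      linarith
    have e : R ((n.choose 2 : ℝ) - 3 * k) / R (n.choose 2 : ℝ)
          * ((n.choose 2 : ℝ) * ((n : ℝ) - 3) / 3)
        = R ((n.choose 2 : ℝ) - 3 * k) / R (n.choose 2 : ℝ)
          * ((n.choose 2 : ℝ) * ((n : ℝ) - 3)) / 3 := by ring
    rw [e] at h1
    have e2 : 4 / 3 * ((n.choose 2 : ℝ) - 3 * k) ^ 3 / (n : ℝ) ^ 3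
        = 4 * ((n.choose 2 : ℝ) - 3 * k) ^ 3 / (n : ℝ) ^ 3 / 3 := by ring
    rw [e2]
    linarith
  · intro n k k₁ κ hn hk hk₁ hwin hκ hfano
    have h1 := main6 n k hn hk
    set N : ℝ := (n.choose 2 : ℝ) with hN
    have hEk : (9 : ℝ) ≤ N - 3 * k := by
      have : ((3 * k + 9 : ℕ) : ℝ) ≤ N := by rw [hN]; exact_mod_cast hk
      push_cast at this
      linarith
    have hterm : ∀ j ∈ range k, (if k₁ ≤ j then κ / 24 else 0)
        ≤ R (N - 3 * k) / R (N - 3 * ((j : ℝ) + 1))
            * stage fano j (edges (univ : Finset (Fin n))) := by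
      intro j hj
      have hj' : j + 1 ≤ k := mem_range.mp hj
      have hjk : ((j + 1 : ℕ) : ℝ) ≤ (k : ℝ) := by exact_mod_cast hj'
      push_cast at hjk
      have hy : (9 : ℝ) ≤ N - 3 * ((j : ℝ) + 1) := by linarith
      have hcpos : 0 ≤ R (N - 3 * k) / R (N - 3 * ((j : ℝ) + 1)) :=
        div_nonneg (R_pos hEk).le (R_pos hy).le
      split_ifs with hkj
      · have hs := hfano j hkj (by omega)
        have hkj' : (k₁ : ℝ) ≤ (j : ℝ) := by exact_mod_cast hkj
        have hc : 1 / 24 ≤ R (N - 3 * k) / R (N - 3 * ((j : ℝ) + 1)) := by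
          rw [div_le_div_iff₀ (by norm_num) (R_pos hy)]
          have := R_window hEk (by linarith : N - 3 * k ≤ N - 3 * ((j : ℝ) + 1))
            (by linarith : N - 3 * ((j : ℝ) + 1) ≤ 2 * (N - 3 * k))
          linarith
        calc κ / 24 = 1 / 24 * κ := by ring
          _ ≤ R (N - 3 * k) / R (N - 3 * ((j : ℝ) + 1))
              * stage fano j (edges (univ : Finset (Fin n))) :=
            mul_le_mul hc hs hκ hcpos
      · exact mul_nonneg hcpos (stage_fano_nonneg j _)
    have hs := sum_le_sum hterm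
    have hcount : ∑ j ∈ range k, (if k₁ ≤ j then κ / 24 else 0)
        = κ / 24 * ((k : ℝ) - k₁) := by
      rw [← sum_filter, sum_const, nsmul_eq_mul]
      have hc : ((range k).filter (fun j => k₁ ≤ j)).card = k - k₁ := by
        have : (range k).filter (fun j => k₁ ≤ j) = Ico k₁ k := by
          ext j
          simp only [mem_filter, mem_range, mem_Ico]
          tauto
        rw [this, Nat.card_Ico]
      rw [hc, Nat.cast_sub hk₁]
      ring
    rw [hcount] at hs
    have : κ * ((k : ℝ) - k₁) / 8 = 3 * (κ / 24 * ((k : ℝ) - k₁)) := by ring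
    rw [this]
    linarith

end Vale.Agent.Results.P046.AStageExcess
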