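import Vale.Agent.Results.P046.FPlusIsolated
import Vale.Agent.Results.P046.AStageExcess

namespace Vale.Agent.Results.P046.A0Conj

theorem result :
    (type_of% @Vale.Agent.Results.P046.FPlusIsolated.result) ∧
    (type_of% @Vale.Agent.Results.P046.AStageExcess.result) :=
  ⟨@Vale.Agent.Results.P046.FPlusIsolated.result, @Vale.Agent.Results.P046.AStageExcess.result⟩

end Vale.Agent.Results.P046.A0Conj
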