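import Vale.Agent.Results.P046.AStageExcess

open Finset

namespace Vale.Agent.Results.P046.AEarlyIsolated

open Vale.Agent.Results.P046.FPlusIsolated
open Vale.Agent.Results.P046.AStageExcess

variable {n : ℕ}

/-- The triangles of `G` that are isolated in `G`: each of their edges lies in no other
triangle of `G`. -/
noncomputable def isoSet (G : Finset (Sym2 (Fin n))) : Finset (Finset (Fin n)) :=
  (tri G).filter (fun t => ∀ e ∈ edges t, load G e = 1)

/-- The triangles that become isolated when the edges of `s` are deleted from `G`: they are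
isolated in `G \ edges s` but were not isolated in `G`. -/
noncomputable def created (G : Finset (Sym2 (Fin n))) (s : Finset (Fin n)) :
    Finset (Finset (Fin n)) :=
  (isoSet (G \ edges s)).filter (fun t => ¬ ∀ e ∈ edges t, load G e = 1)

/-- The expected number of triangles that become isolated during the first `k` steps of the
process started from `G`, by first-step recursion. -/
noncomputable def expCreated : ℕ → Finset (Sym2 (Fin n)) → ℝ
  | 0, _ => 0
  | k + 1, G =>
    if (tri G).Nonempty then
      (∑ s ∈ tri G, (((created G s).card : ℝ) + expCreated k (G \ edges s))) / ((tri G).card : ℝ)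
    else 0

lemma tri_sdiff_subset (G : Finset (Sym2 (Fin n))) (s : Finset (Fin n)) :
    tri (G \ edges s) ⊆ tri G := by
  intro t ht
  rw [tri_sdiff, cut, mem_filter] at ht
  exact ht.1

lemma mem_tri_sdiff {G : Finset (Sym2 (Fin n))} {s t : Finset (Fin n)} :
    t ∈ tri (G \ edges s) ↔ t ∈ tri G ∧ Disjoint (edges t) (edges s) := by
  rw [tri_sdiff, cut, mem_filter]

lemma load_pos {G : Finset (Sym2 (Fin n))} {t : Finset (Fin n)} {e : Sym2 (Fin n)}
    (ht : t ∈ tri G) (he : e ∈ edges t) : 1 ≤ load G e :=
  card_pos.mpr ⟨t, mem_filter.mpr ⟨ht, he⟩⟩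

lemma eq_of_load_one {G : Finset (Sym2 (Fin n))} {t t' : Finset (Fin n)} {e : Sym2 (Fin n)}
    (h : load G e = 1) (ht : t ∈ tri G) (he : e ∈ edges t) (ht' : t' ∈ tri G)
    (he' : e ∈ edges t') : t = t' := by
  have : ((tri G).filter (fun t => e ∈ edges t)).card ≤ 1 := by
    rw [load] at h; omega
  exact card_le_one.mp this t (mem_filter.mpr ⟨ht, he⟩) t' (mem_filter.mpr ⟨ht', he'⟩)

/-- A firing that kills `m` other triangles creates at most `2 m` isolated triangles. -/
lemma created_le {G : Finset (Sym2 (Fin n))} {s : Finset (Fin n)} (hs : s ∈ tri G) :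
    (created G s).card + 2 * (tri (G \ edges s)).card + 2 ≤ 2 * (tri G).card := by
  classical
  set K := (tri G).filter (fun u => u ≠ s ∧ ¬ Disjoint (edges u) (edges s)) with hK
  have hT : (tri G).card = (tri (G \ edges s)).card + 1 + K.card := by
    have h1 : tri G = tri (G \ edges s) ∪ (insert s K) := by
      ext u
      simp only [mem_union, mem_insert, hK, mem_filter, mem_tri_sdiff]
      constructor
      · intro hu
        by_cases hus : u = s
        · exact Or.inr (Or.inl hus)
        · by_cases hd : Disjoint (edges u) (edges s)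
          · exact Or.inl ⟨hu, hd⟩
          · exact Or.inr (Or.inr ⟨hu, hus, hd⟩)
      · rintro (h | rfl | h)
        · exact h.1
        · exact hs
        · exact h.1
    have hne : ¬ Disjoint (edges s) (edges s) := by
      rw [disjoint_self]
      have h3 := card_edges_of_mem_tri hs
      intro h0
      rw [h0] at h3
      simp at h3
    have h2 : Disjoint (tri (G \ edges s)) (insert s K) := by
      rw [disjoint_left]
      intro u hu hu'
      rw [mem_tri_sdiff] at hu
      simp only [mem_insert, hK, mem_filter] at hu'
      rcases hu' with rfl | hu'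
      · exact hne hu.2
      · exact hu'.2.2 hu.2
    have h3 : s ∉ K := by
      simp [hK]
    rw [h1, card_union_of_disjoint h2, card_insert_of_notMem h3]
    omega
  set W := K.biUnion (fun u => edges u \ edges s) with hW
  have hWc : W.card ≤ 2 * K.card := by
    have h1 : W.card ≤ ∑ u ∈ K, (edges u \ edges s).card := card_biUnion_le
    have h2 : ∀ u ∈ K, (edges u \ edges s).card ≤ 2 := by
      intro u hu
      simp only [hK, mem_filter] at hu
      have h3 := card_edges_of_mem_tri hu.1
      have h4 : (edges u ∩ edges s).Nonempty := by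
        have := hu.2.2
        rw [disjoint_iff_inter_eq_empty] at this
        exact nonempty_iff_ne_empty.mpr this
      have h5 := card_pos.mpr h4
      have h6 := card_sdiff_add_card_inter (edges u) (edges s)
      omega
    have h3 := sum_le_card_nsmul K (fun u => (edges u \ edges s).card) 2 h2
    simp only [smul_eq_mul] at h3
    omega
  have hcW : (created G s).card ≤ W.card := by
    refine card_le_card_of_forall_subsingleton (fun t f => f ∈ edges t) ?_ ?_
    · intro t ht
      simp only [created, isoSet, mem_filter] at ht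
      obtain ⟨⟨ht1, ht2⟩, ht3⟩ := ht
      push Not at ht3
      obtain ⟨f, hf, hfl⟩ := ht3
      have htG := tri_sdiff_subset G s ht1
      have hl := load_pos htG hf
      have hfnot : f ∉ edges s := by
        have := (mem_tri_sdiff.mp ht1).2
        exact disjoint_left.mp this hf
      have h2 : 1 < ((tri G).filter (fun u => f ∈ edges u)).card := by
        have : load G f ≠ 1 := hfl
        rw [load] at this hl
        omega
      obtain ⟨a, ha, b, hb, hab⟩ := one_lt_card.mp h2
      have : ∃ u ∈ tri G, f ∈ edges u ∧ u ≠ t := by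
        by_cases hat : a = t
        · exact ⟨b, (mem_filter.mp hb).1, (mem_filter.mp hb).2, fun h => hab (hat.trans h.symm)⟩
        · exact ⟨a, (mem_filter.mp ha).1, (mem_filter.mp ha).2, hat⟩
      obtain ⟨u, hu, hfu, hut⟩ := this
      have hu' : u ∉ tri (G \ edges s) := by
        intro hu'
        exact hut (eq_of_load_one (ht2 f hf) hu' hfu ht1 hf)
      have hnd : ¬ Disjoint (edges u) (edges s) := by
        intro hd
        exact hu' (mem_tri_sdiff.mpr ⟨hu, hd⟩)
      have hus : u ≠ s := by
        rintro rfl
        exact hfnot hfu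
      refine ⟨f, ?_, hf⟩
      simp only [hW, mem_biUnion, mem_sdiff, hK, mem_filter]
      exact ⟨u, ⟨hu, hus, hnd⟩, hfu, hfnot⟩
    · intro f _ t ht t' ht'
      simp only [Set.mem_ofPred_eq, created, isoSet, mem_filter] at ht ht'
      exact eq_of_load_one (ht.1.1.2 f ht.2) ht.1.1.1 ht.2 ht'.1.1.1 ht'.2
  omega

/-- The number of isolated triangles after a firing. -/
lemma iso_step {G : Finset (Sym2 (Fin n))} {s : Finset (Fin n)} (_hs : s ∈ tri G) :
    (isoSet (G \ edges s)).card + (if ∀ e ∈ edges s, load G e = 1 then 1 else 0)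
      ≤ (isoSet G).card + (created G s).card := by
  classical
  have hsub : isoSet (G \ edges s) ⊆ ((isoSet G).erase s) ∪ created G s := by
    intro t ht
    simp only [mem_union, mem_erase]
    by_cases hi : ∀ e ∈ edges t, load G e = 1
    · left
      have ht1 := (mem_filter.mp ht).1
      refine ⟨?_, mem_filter.mpr ⟨tri_sdiff_subset G s ht1, hi⟩⟩
      rintro rfl
      have h3 := card_edges_of_mem_tri (tri_sdiff_subset G t ht1)
      have hd := (mem_tri_sdiff.mp ht1).2
      rw [disjoint_self] at hd
      rw [hd] at h3
      simp at h3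
    · right
      exact mem_filter.mpr ⟨ht, hi⟩
  have h1 := card_le_card hsub
  have h2 := card_union_le ((isoSet G).erase s) (created G s)
  split_ifs with hiso
  · have hm : s ∈ isoSet G := mem_filter.mpr ⟨_hs, hiso⟩
    have h3 := card_erase_of_mem hm
    have h4 := card_pos.mpr ⟨s, hm⟩
    omega
  · have hm : s ∉ isoSet G := fun h => hiso (mem_filter.mp h).2
    rw [erase_eq_of_notMem hm] at h1 h2
    omega

lemma excess_step' {G : Finset (Sym2 (Fin n))} {s : Finset (Fin n)} (hs : s ∈ tri G) :
    2 * excess (G \ edges s) + ((created G s).card : ℝ) ≤ 2 * excess G := by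
  have h1 := created_le hs
  have h2 : ((created G s).card : ℝ) + 2 * ((tri (G \ edges s)).card : ℝ) + 2
      ≤ 2 * ((tri G).card : ℝ) := by exact_mod_cast h1
  unfold excess
  rw [card_sdiff_edges hs]
  linarith

/-- The isolated triangles created after a given moment are paid by the excess at that moment
and the final edges. -/
lemma base_aux : ∀ (m : ℕ) (G : Finset (Sym2 (Fin n))), G.card = m →
    expS G ≤ ((isoSet G).card : ℝ) + 2 / 3 * expF G + 2 * excess G := by
  intro m
  induction m using Nat.strong_induction_on with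
  | _ m ih =>
    intro G hG
    rw [expS_eq, expF_eq]
    split_ifs with hT
    · have hTpos : (0 : ℝ) < ((tri G).card : ℝ) := by exact_mod_cast card_pos.mpr hT
      have hb : ∀ s ∈ tri G, expS (G \ edges s) + (if ∀ e ∈ edges s, load G e = 1 then 1 else 0)
          ≤ ((isoSet G).card : ℝ) + 2 / 3 * expF (G \ edges s) + 2 * excess G := by
        intro s hs
        have h1 := ih (G \ edges s).card (by
          have := card_sdiff_edges' hs
          omega) (G \ edges s) rfl
        have h2 := iso_step hs
        have h3 := excess_step' hs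
        have h4 : ((isoSet (G \ edges s)).card : ℝ)
            + (if ∀ e ∈ edges s, load G e = 1 then (1 : ℝ) else 0)
            ≤ ((isoSet G).card : ℝ) + ((created G s).card : ℝ) := by
          have : (((isoSet (G \ edges s)).card + (if ∀ e ∈ edges s, load G e = 1 then 1 else 0) : ℕ) : ℝ)
              ≤ (((isoSet G).card + (created G s).card : ℕ) : ℝ) := by exact_mod_cast h2
          push_cast at this
          exact this
        linarith
      have hs := sum_le_sum hb
      rw [div_le_iff₀ hTpos]
      have e : (((isoSet G).card : ℝ) + 2 / 3 * ((∑ t ∈ tri G, expF (G \ edges t)) / ((tri G).card : ℝ))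
            + 2 * excess G) * ((tri G).card : ℝ)
          = ∑ s ∈ tri G, (((isoSet G).card : ℝ) + 2 / 3 * expF (G \ edges s) + 2 * excess G) := by
        rw [sum_add_distrib, sum_add_distrib, sum_const, sum_const, nsmul_eq_mul, nsmul_eq_mul,
          ← mul_sum]
        field_simp
        try ring
      rw [e]
      exact hs
    · have h0 : (tri G).card = 0 := by
        rw [card_eq_zero]
        exact not_nonempty_iff_eq_empty.mp hT
      have h1 : (0 : ℝ) ≤ ((isoSet G).card : ℝ) := Nat.cast_nonneg _
      unfold excess
      rw [h0]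
      push_cast
      linarith

/-- The general inequality: `E[S]` is at most the isolated triangles present at the start, those
created in the first `k` steps, two thirds of `E[F]` and twice the excess after `k` steps. -/
lemma stage_aux (k : ℕ) : ∀ G : Finset (Sym2 (Fin n)),
    expS G ≤ ((isoSet G).card : ℝ) + expCreated k G + 2 / 3 * expF G + 2 * stage excess k G := by
  induction k with
  | zero =>
    intro G
    have := base_aux _ G rfl
    simp only [expCreated, stage, add_zero]
    exact this
  | succ k ih =>
    intro G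
    by_cases hT : (tri G).Nonempty
    · have hTpos : (0 : ℝ) < ((tri G).card : ℝ) := by exact_mod_cast card_pos.mpr hT
      rw [expS_eq, expF_eq, if_pos hT, if_pos hT, expCreated, stage, if_pos hT, if_pos hT]
      have hb : ∀ s ∈ tri G, expS (G \ edges s) + (if ∀ e ∈ edges s, load G e = 1 then 1 else 0)
          ≤ ((isoSet G).card : ℝ) + (((created G s).card : ℝ) + expCreated k (G \ edges s))
            + 2 / 3 * expF (G \ edges s) + 2 * stage excess k (G \ edges s) := by
        intro s hs
        have h1 := ih (G \ edges s)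
        have h2 := iso_step hs
        have h4 : ((isoSet (G \ edges s)).card : ℝ)
            + (if ∀ e ∈ edges s, load G e = 1 then (1 : ℝ) else 0)
            ≤ ((isoSet G).card : ℝ) + ((created G s).card : ℝ) := by
          have : (((isoSet (G \ edges s)).card + (if ∀ e ∈ edges s, load G e = 1 then 1 else 0) : ℕ) : ℝ)
              ≤ (((isoSet G).card + (created G s).card : ℕ) : ℝ) := by exact_mod_cast h2
          push_cast at this
          exact this
        linarith
      have hs := sum_le_sum hb
      rw [div_le_iff₀ hTpos]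
      have e : (((isoSet G).card : ℝ)
            + (∑ s ∈ tri G, (((created G s).card : ℝ) + expCreated k (G \ edges s))) / ((tri G).card : ℝ)
            + 2 / 3 * ((∑ t ∈ tri G, expF (G \ edges t)) / ((tri G).card : ℝ))
            + 2 * ((∑ t ∈ tri G, stage excess k (G \ edges t)) / ((tri G).card : ℝ)))
            * ((tri G).card : ℝ)
          = ∑ s ∈ tri G, (((isoSet G).card : ℝ)
              + (((created G s).card : ℝ) + expCreated k (G \ edges s))
              + 2 / 3 * expF (G \ edges s) + 2 * stage excess k (G \ edges s)) := by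
        simp only [sum_add_distrib, ← mul_sum, sum_const, nsmul_eq_mul]
        field_simp
        try ring
      rw [e]
      exact hs
    · have := base_aux _ G rfl
      rw [expCreated, stage, if_neg hT, if_neg hT]
      simpa using this

lemma iso_top (n : ℕ) (hn : 4 ≤ n) : isoSet (edges (univ : Finset (Fin n))) = ∅ := by
  rw [isoSet, filter_eq_empty_iff]
  intro t ht hall
  have h3 := card_edges_of_mem_tri ht
  have hne : (edges t).Nonempty := by
    rw [← card_pos]; omega
  obtain ⟨e, he⟩ := hne
  have hl := hall e he
  induction e with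
  | _ a b =>
    obtain ⟨_, _, hab⟩ := mem_edges.mp he
    rw [load_top hab] at hl
    omega

/-- The hand-in: see the claim file. -/
theorem result :
    (∀ (n : ℕ) (G : Finset (Sym2 (Fin n))) (k : ℕ),
      expS G ≤ ((isoSet G).card : ℝ) + expCreated k G + 2 / 3 * expF G + 2 * stage excess k G) ∧
    (∀ n k : ℕ, 17 ≤ n → 3 * k + 9 ≤ n.choose 2 →
      (3 / 7 : ℝ) * (n.choose 2 : ℝ) / Real.sqrt (2 * (n : ℝ) - 5)
        ≤ 13 / 7 * expF (edges (univ : Finset (Fin n)))
          + 9 / 7 * expCreated k (edges (univ : Finset (Fin n)))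
          + 24 / 7 * ((n.choose 2 : ℝ) - 3 * k) ^ 3 / (n : ℝ) ^ 3) ∧
    (∀ n k : ℕ, 17 ≤ n → 3 * k + 9 ≤ n.choose 2 →
      (n.choose 2 : ℝ) - 3 * k ≤ (n : ℝ) * Real.sqrt (n : ℝ) / 4 →
      (n : ℝ) * Real.sqrt (n : ℝ) / 25
        ≤ 13 / 7 * expF (edges (univ : Finset (Fin n)))
          + 9 / 7 * expCreated k (edges (univ : Finset (Fin n)))) := by
  have main2 : ∀ n k : ℕ, 17 ≤ n → 3 * k + 9 ≤ n.choose 2 →
      (3 / 7 : ℝ) * (n.choose 2 : ℝ) / Real.sqrt (2 * (n : ℝ) - 5)
        ≤ 13 / 7 * expF (edges (univ : Finset (Fin n)))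
          + 9 / 7 * expCreated k (edges (univ : Finset (Fin n)))
          + 24 / 7 * ((n.choose 2 : ℝ) - 3 * k) ^ 3 / (n : ℝ) ^ 3 := by
    intro n k hn hk
    have h1 := complete_bound n (by omega)
    have h2 := stage_aux k (edges (univ : Finset (Fin n)))
    rw [iso_top n (by omega)] at h2
    simp only [card_empty, Nat.cast_zero, zero_add] at h2
    have h3 := Vale.Agent.Results.P046.AStageExcess.result.2.2.2.2.1 n k hn hk
    have e : 24 / 7 * ((n.choose 2 : ℝ) - 3 * k) ^ 3 / (n : ℝ) ^ 3
        = 18 / 7 * (4 / 3 * ((n.choose 2 : ℝ) - 3 * k) ^ 3 / (n : ℝ) ^ 3) := by ring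
    rw [e]
    linarith
  refine ⟨fun n G k => stage_aux k G, main2, ?_⟩
  intro n k hn hk hE
  have h1 := main2 n k hn hk
  have h2 := order_bound n (by omega)
  have hn0 : (0 : ℝ) < (n : ℝ) := by
    have : (17 : ℝ) ≤ (n : ℝ) := by exact_mod_cast hn
    linarith
  have hs : (n : ℝ) * Real.sqrt (n : ℝ) * ((n : ℝ) * Real.sqrt (n : ℝ)) = (n : ℝ) ^ 3 := by
    have := Real.mul_self_sqrt hn0.le
    nlinarith
  have hE0 : (0 : ℝ) ≤ (n.choose 2 : ℝ) - 3 * k := by
    have : ((3 * k + 9 : ℕ) : ℝ) ≤ (n.choose 2 : ℝ) := by exact_mod_cast hk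
    push_cast at this
    linarith
  set q : ℝ := (n : ℝ) * Real.sqrt (n : ℝ) with hq
  have hqpos : 0 < q := by
    rw [hq]
    have := Real.sqrt_pos.mpr hn0
    positivity
  set x : ℝ := (n.choose 2 : ℝ) - 3 * k with hx
  have hx3 : x ^ 3 ≤ (q / 4) ^ 3 := pow_le_pow_left₀ hE0 hE 3
  have hfrac : 24 / 7 * x ^ 3 / (n : ℝ) ^ 3 ≤ 3 / 56 * q := by
    rw [div_le_iff₀ (by positivity)]
    rw [← hs]
    have e : 3 / 56 * q * (q * q) = 24 / 7 * (q / 4) ^ 3 := by ring
    rw [e]
    linarith
  have : q / 25 + 3 / 56 * q ≤ q / 10 := by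
    nlinarith
  linarith

end Vale.Agent.Results.P046.AEarlyIsolated
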