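import Vale.Agent.Results.P046.FPlusIsolated

open Finset

namespace Vale.Agent.Results.P046.AIsolatedAtLevel

open Vale.Agent.Results.P046.FPlusIsolated

variable {n : ℕ}

/-- The number of triangles of `G` all of whose edges have load one in `G` (isolated triangles). -/
def isoCount (G : Finset (Sym2 (Fin n))) : ℕ :=
  ((tri G).filter (fun t => ∀ e ∈ edges t, load G e = 1)).card

/-- The kill rate of `t` in `G`: the number of other triangles of `G` sharing an edge with `t`
when `t` is a triangle of `G`. -/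
def kill (G : Finset (Sym2 (Fin n))) (t : Finset (Fin n)) : ℕ := ∑ e ∈ edges t, (load G e - 1)

/-- The number of triangles of `G` with kill rate above `R`. -/
def high (R : ℕ) (G : Finset (Sym2 (Fin n))) : ℕ :=
  ((tri G).filter (fun t => R < kill G t)).card

/-- The number of edges of `G` in no triangle of `G`. -/
def dead (G : Finset (Sym2 (Fin n))) : ℕ := (G.filter (fun e => load G e = 0)).card

/-- The triangles of `G` other than `τ` that share an edge with `τ`. -/
def nbr (G : Finset (Sym2 (Fin n))) (τ : Finset (Fin n)) : Finset (Finset (Fin n)) :=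
  (tri G).filter (fun t => t ≠ τ ∧ ¬ Disjoint (edges t) (edges τ))

/-- The number of triangles, as a real number. -/
noncomputable def Tc (G : Finset (Sym2 (Fin n))) : ℝ := ((tri G).card : ℝ)

lemma mem_tri_sdiff {G : Finset (Sym2 (Fin n))} {τ t : Finset (Fin n)} :
    t ∈ tri (G \ edges τ) ↔ t ∈ tri G ∧ Disjoint (edges t) (edges τ) := by
  rw [tri_sdiff]
  simp [cut, mem_filter]

lemma edges_subset {G : Finset (Sym2 (Fin n))} {t : Finset (Fin n)} (ht : t ∈ tri G) :
    edges t ⊆ G := (mem_filter.mp ht).2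

lemma load_pos {G : Finset (Sym2 (Fin n))} {t : Finset (Fin n)} {e : Sym2 (Fin n)}
    (ht : t ∈ tri G) (he : e ∈ edges t) : 1 ≤ load G e :=
  card_pos.mpr ⟨t, mem_filter.mpr ⟨ht, he⟩⟩

lemma load_mono (G : Finset (Sym2 (Fin n))) (τ : Finset (Fin n)) (e : Sym2 (Fin n)) :
    load (G \ edges τ) e ≤ load G e := by
  apply card_le_card
  intro t ht
  obtain ⟨h1, h2⟩ := mem_filter.mp ht
  exact mem_filter.mpr ⟨(mem_tri_sdiff.mp h1).1, h2⟩

lemma kill_mono (G : Finset (Sym2 (Fin n))) (τ t : Finset (Fin n)) :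
    kill (G \ edges τ) t ≤ kill G t :=
  sum_le_sum (fun e _ => Nat.sub_le_sub_right (load_mono G τ e) 1)

lemma not_mem_self {G : Finset (Sym2 (Fin n))} {τ : Finset (Fin n)} (hτ : τ ∈ tri G) :
    τ ∉ tri (G \ edges τ) := by
  intro h
  have hd := (mem_tri_sdiff.mp h).2
  have hc := card_edges_of_mem_tri hτ
  have he : edges τ = ∅ := disjoint_self_iff_empty _ |>.mp hd
  rw [he] at hc
  simp at hc

lemma card_sdiff_step {G : Finset (Sym2 (Fin n))} {τ : Finset (Fin n)} (hτ : τ ∈ tri G) :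
    (G \ edges τ).card + 3 = G.card := by
  have h3 := card_edges_of_mem_tri hτ
  have hsub := edges_subset hτ
  rw [card_sdiff_of_subset hsub]
  have := card_le_card hsub
  omega

lemma nbr_eq_biUnion {G : Finset (Sym2 (Fin n))} {τ : Finset (Fin n)} :
    nbr G τ = (edges τ).biUnion (fun e => ((tri G).filter (fun t => e ∈ edges t)).erase τ) := by
  ext t
  simp only [nbr, mem_filter, mem_biUnion, mem_erase]
  constructor
  · rintro ⟨ht, hne, hd⟩
    obtain ⟨e, he1, he2⟩ := Finset.not_disjoint_iff.mp hd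
    exact ⟨e, he2, hne, ht, he1⟩
  · rintro ⟨e, he, hne, ht, he1⟩
    exact ⟨ht, hne, Finset.not_disjoint_iff.mpr ⟨e, he1, he⟩⟩

lemma card_nbr {G : Finset (Sym2 (Fin n))} {τ : Finset (Fin n)} (hτ : τ ∈ tri G) :
    (nbr G τ).card = kill G τ := by
  rw [nbr_eq_biUnion, card_biUnion]
  · refine sum_congr rfl (fun e he => ?_)
    rw [card_erase_of_mem (mem_filter.mpr ⟨hτ, he⟩)]
    rfl
  · intro e he e' he' hne
    refine Finset.disjoint_left.mpr (fun t ht ht' => ?_)
    simp only [mem_erase, mem_filter] at ht ht'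
    exact hne (edges_linear (card_of_mem_tri hτ) (card_of_mem_tri ht.2.1) (Ne.symm ht.1) e e' he
      ht.2.2 he' ht'.2.2)

lemma card_tri_step {G : Finset (Sym2 (Fin n))} {τ : Finset (Fin n)} (hτ : τ ∈ tri G) :
    (tri (G \ edges τ)).card + 1 + kill G τ = (tri G).card := by
  rw [← card_nbr hτ]
  have hdec : tri G = insert τ (tri (G \ edges τ) ∪ nbr G τ) := by
    ext t
    simp only [mem_insert, mem_union, mem_tri_sdiff, nbr, mem_filter]
    constructor
    · intro ht
      by_cases h1 : t = τ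
      · exact Or.inl h1
      · right
        by_cases h2 : Disjoint (edges t) (edges τ)
        · exact Or.inl ⟨ht, h2⟩
        · exact Or.inr ⟨ht, h1, h2⟩
    · rintro (rfl | ⟨h, _⟩ | ⟨h, _⟩)
      · exact hτ
      · exact h
      · exact h
  have hnotin : τ ∉ tri (G \ edges τ) ∪ nbr G τ := by
    simp only [mem_union, not_or]
    refine ⟨not_mem_self hτ, ?_⟩
    simp [nbr]
  have hdisj : Disjoint (tri (G \ edges τ)) (nbr G τ) := by
    refine Finset.disjoint_left.mpr (fun t h1 h2 => ?_)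
    exact (mem_filter.mp h2).2.2 (mem_tri_sdiff.mp h1).2
  conv_rhs => rw [hdec]
  rw [card_insert_of_notMem hnotin, card_union_of_disjoint hdisj]
  omega

/-- Double count of a function over edges of triangles. -/
lemma sum_edges (G : Finset (Sym2 (Fin n))) (f : Sym2 (Fin n) → ℝ) :
    ∑ τ ∈ tri G, ∑ e ∈ edges τ, f e = ∑ e ∈ G, (load G e : ℝ) * f e := by
  have h := Finset.sum_comm' (s := tri G) (t := fun τ => edges τ) (t' := G)
    (s' := fun e => (tri G).filter (fun τ => e ∈ edges τ)) (f := fun _ e => f e) (by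
      intro τ e
      simp only [mem_filter]
      constructor
      · rintro ⟨h1, h2⟩
        exact ⟨⟨h1, h2⟩, edges_subset h1 h2⟩
      · rintro ⟨⟨h1, h2⟩, _⟩
        exact ⟨h1, h2⟩)
  rw [h]
  refine sum_congr rfl (fun e _ => ?_)
  rw [sum_const, nsmul_eq_mul]
  rfl

lemma sum_load (G : Finset (Sym2 (Fin n))) :
    ∑ e ∈ G, (load G e : ℝ) = 3 * Tc G := by
  have h := sum_edges G (fun _ => 1)
  simp only [mul_one] at h
  rw [← h, Tc, ← nsmul_eq_mul', ← sum_const]
  refine sum_congr rfl (fun τ hτ => ?_)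
  simp [card_edges_of_mem_tri hτ]

lemma kill_cast {G : Finset (Sym2 (Fin n))} {τ : Finset (Fin n)} (hτ : τ ∈ tri G) :
    (kill G τ : ℝ) = ∑ e ∈ edges τ, (load G e : ℝ) - 3 := by
  have h3 : (edges τ).card = 3 := card_edges_of_mem_tri hτ
  have h : ∀ e ∈ edges τ, ((load G e - 1 : ℕ) : ℝ) = (load G e : ℝ) - 1 := by
    intro e he
    have := load_pos hτ he
    push_cast [this]
    rfl
  rw [kill]
  push_cast
  rw [sum_congr rfl h, sum_sub_distrib]
  simp [h3]

lemma sum_kill (G : Finset (Sym2 (Fin n))) :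
    ∑ τ ∈ tri G, (kill G τ : ℝ) = ∑ e ∈ G, (load G e : ℝ) ^ 2 - 3 * Tc G := by
  rw [sum_congr rfl (fun τ hτ => kill_cast hτ), sum_sub_distrib, sum_edges G (fun e => load G e)]
  simp [Tc, pow_two, mul_comm]

/-- The expected number of triangles after one step. -/
lemma step_T {G : Finset (Sym2 (Fin n))} (hne : (tri G).Nonempty) :
    (∑ τ ∈ tri G, Tc (G \ edges τ)) / Tc G ≤ Tc G + 2 - 9 * Tc G / (G.card : ℝ) := by
  obtain ⟨τ₀, hτ₀⟩ := hne
  have hT : 0 < Tc G := by
    unfold Tc
    exact_mod_cast card_pos.mpr ⟨τ₀, hτ₀⟩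
  have hx : 0 < (G.card : ℝ) := by
    have := card_sdiff_step hτ₀
    have h : 0 < G.card := by omega
    exact_mod_cast h
  have hstep : ∀ τ ∈ tri G, Tc (G \ edges τ) = Tc G - 1 - (kill G τ : ℝ) := by
    intro τ hτ
    have := card_tri_step hτ
    unfold Tc
    rw [← this]
    push_cast
    ring
  rw [sum_congr rfl hstep, sum_sub_distrib, sum_sub_distrib, sum_kill, sum_const, sum_const,
    nsmul_eq_mul, nsmul_eq_mul, mul_one]
  have hc : ((tri G).card : ℝ) = Tc G := rfl
  rw [hc]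
  have hCS : (∑ e ∈ G, (load G e : ℝ)) ^ 2 ≤ (G.card : ℝ) * ∑ e ∈ G, (load G e : ℝ) ^ 2 :=
    sq_sum_le_card_mul_sum_sq
  rw [sum_load] at hCS
  rw [div_le_iff₀ hT]
  have h9 : 9 * Tc G / (G.card : ℝ) * Tc G ≤ ∑ e ∈ G, (load G e : ℝ) ^ 2 := by
    rw [div_mul_eq_mul_div, div_le_iff₀ hx]
    nlinarith
  have : (Tc G + 2 - 9 * Tc G / (G.card : ℝ)) * Tc G
      = Tc G * Tc G + 2 * Tc G - 9 * Tc G / (G.card : ℝ) * Tc G := by ring
  rw [this]
  linarith

/-! ## Level expectations -/

/-- The expectation of `g` at the first moment when the process started from `G` has at most `X`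
edges or no triangle. -/
noncomputable def lev (X : ℕ) (g : Finset (Sym2 (Fin n)) → ℝ) (G : Finset (Sym2 (Fin n))) : ℝ :=
  if X < G.card ∧ (tri G).Nonempty then
    (∑ t ∈ (tri G).attach, lev X g (G \ edges t.1)) / ((tri G).card : ℝ)
  else g G
termination_by G.card
decreasing_by exact card_sdiff_edges_lt t.2

lemma lev_eq (X : ℕ) (g : Finset (Sym2 (Fin n)) → ℝ) (G : Finset (Sym2 (Fin n))) :
    lev X g G = if X < G.card ∧ (tri G).Nonempty then
      (∑ t ∈ tri G, lev X g (G \ edges t)) / ((tri G).card : ℝ) else g G := by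
  rw [lev]
  congr 2
  exact sum_attach (tri G) (fun t => lev X g (G \ edges t))

lemma lev_step {X : ℕ} {g : Finset (Sym2 (Fin n)) → ℝ} {G : Finset (Sym2 (Fin n))}
    (h1 : X < G.card) (h2 : (tri G).Nonempty) :
    lev X g G = (∑ t ∈ tri G, lev X g (G \ edges t)) / ((tri G).card : ℝ) := by
  rw [lev_eq, if_pos ⟨h1, h2⟩]

lemma lev_stop {X : ℕ} {g : Finset (Sym2 (Fin n)) → ℝ} {G : Finset (Sym2 (Fin n))}
    (h : ¬ (X < G.card ∧ (tri G).Nonempty)) : lev X g G = g G := by
  rw [lev_eq, if_neg h]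

lemma tri_card_pos {G : Finset (Sym2 (Fin n))} (h : (tri G).Nonempty) :
    (0 : ℝ) < ((tri G).card : ℝ) := by exact_mod_cast card_pos.mpr h

lemma lev_mono_good {X : ℕ} {g h : Finset (Sym2 (Fin n)) → ℝ}
    (hgh : ∀ G : Finset (Sym2 (Fin n)),
      (G.card = X ∨ (X ≤ G.card ∧ ¬ (tri G).Nonempty)) → g G ≤ h G) :
    ∀ (k : ℕ) (G : Finset (Sym2 (Fin n))), G.card = X + 3 * k → lev X g G ≤ lev X h G := by
  intro k
  induction k with
  | zero =>
    intro G hG
    have hs : ¬ (X < G.card ∧ (tri G).Nonempty) := by omega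
    rw [lev_stop hs, lev_stop hs]
    exact hgh G (Or.inl (by omega))
  | succ k ih =>
    intro G hG
    by_cases hne : (tri G).Nonempty
    · rw [lev_step (by omega) hne, lev_step (by omega) hne]
      refine div_le_div_of_nonneg_right (sum_le_sum (fun t ht => ih _ ?_)) (tri_card_pos hne).le
      have := card_sdiff_step ht
      omega
    · have hs : ¬ (X < G.card ∧ (tri G).Nonempty) := fun h => hne h.2
      rw [lev_stop hs, lev_stop hs]
      exact hgh G (Or.inr ⟨by omega, hne⟩)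

lemma lev_mono {X : ℕ} {g h : Finset (Sym2 (Fin n)) → ℝ} (hgh : ∀ G, g G ≤ h G) :
    ∀ (k : ℕ) (G : Finset (Sym2 (Fin n))), G.card = k → lev X g G ≤ lev X h G := by
  intro k
  induction k using Nat.strong_induction_on with
  | _ k ih =>
    intro G hG
    by_cases hs : X < G.card ∧ (tri G).Nonempty
    · rw [lev_step hs.1 hs.2, lev_step hs.1 hs.2]
      refine div_le_div_of_nonneg_right (sum_le_sum (fun t ht => ?_)) (tri_card_pos hs.2).le
      exact ih _ (by have := card_sdiff_step ht; omega) _ rfl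
    · rw [lev_stop hs, lev_stop hs]
      exact hgh G

lemma lev_add (X : ℕ) (g h : Finset (Sym2 (Fin n)) → ℝ) :
    ∀ (k : ℕ) (G : Finset (Sym2 (Fin n))), G.card = k →
      lev X (fun G => g G + h G) G = lev X g G + lev X h G := by
  intro k
  induction k using Nat.strong_induction_on with
  | _ k ih =>
    intro G hG
    by_cases hs : X < G.card ∧ (tri G).Nonempty
    · rw [lev_step hs.1 hs.2, lev_step hs.1 hs.2, lev_step hs.1 hs.2, ← add_div, ← sum_add_distrib]
      congr 1
      refine sum_congr rfl (fun t ht => ?_)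
      exact ih _ (by have := card_sdiff_step ht; omega) _ rfl
    · rw [lev_stop hs, lev_stop hs, lev_stop hs]

lemma lev_smul (X : ℕ) (c : ℝ) (g : Finset (Sym2 (Fin n)) → ℝ) :
    ∀ (k : ℕ) (G : Finset (Sym2 (Fin n))), G.card = k →
      lev X (fun G => c * g G) G = c * lev X g G := by
  intro k
  induction k using Nat.strong_induction_on with
  | _ k ih =>
    intro G hG
    by_cases hs : X < G.card ∧ (tri G).Nonempty
    · rw [lev_step hs.1 hs.2, lev_step hs.1 hs.2, mul_div_assoc', mul_sum]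
      congr 1
      refine sum_congr rfl (fun t ht => ?_)
      exact ih _ (by have := card_sdiff_step ht; omega) _ rfl
    · rw [lev_stop hs, lev_stop hs]

lemma lev_const (X : ℕ) (c : ℝ) :
    ∀ (k : ℕ) (G : Finset (Sym2 (Fin n))), G.card = k → lev X (fun _ => c) G = c := by
  intro k
  induction k using Nat.strong_induction_on with
  | _ k ih =>
    intro G hG
    by_cases hs : X < G.card ∧ (tri G).Nonempty
    · rw [lev_step hs.1 hs.2]
      have hT := tri_card_pos hs.2
      rw [sum_congr rfl (fun t ht => ih _ (by have := card_sdiff_step ht; omega) _ rfl),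
        sum_const, nsmul_eq_mul]
      field_simp
    · rw [lev_stop hs]

lemma lev_tower {x y : ℕ} (hyx : y ≤ x) (g : Finset (Sym2 (Fin n)) → ℝ) :
    ∀ (k : ℕ) (G : Finset (Sym2 (Fin n))), G.card = k → lev x (lev y g) G = lev y g G := by
  intro k
  induction k using Nat.strong_induction_on with
  | _ k ih =>
    intro G hG
    by_cases hs : x < G.card ∧ (tri G).Nonempty
    · rw [lev_step hs.1 hs.2, lev_step (lt_of_le_of_lt hyx hs.1) hs.2]
      congr 1
      refine sum_congr rfl (fun t ht => ?_)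
      exact ih _ (by have := card_sdiff_step ht; omega) _ rfl
    · rw [lev_stop hs]

lemma lev_expF (X : ℕ) :
    ∀ (k : ℕ) (G : Finset (Sym2 (Fin n))), G.card = k → lev X expF G = expF G := by
  intro k
  induction k using Nat.strong_induction_on with
  | _ k ih =>
    intro G hG
    by_cases hs : X < G.card ∧ (tri G).Nonempty
    · rw [lev_step hs.1 hs.2, expF_eq, if_pos hs.2]
      congr 1
      refine sum_congr rfl (fun t ht => ?_)
      exact ih _ (by have := card_sdiff_step ht; omega) _ rfl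
    · rw [lev_stop hs]

/-- For a quantity that never grows along the process, stopping later gives a smaller mean. -/
lemma lev_le_self {y : ℕ} {g : Finset (Sym2 (Fin n)) → ℝ}
    (hg : ∀ (G : Finset (Sym2 (Fin n))) (τ : Finset (Fin n)), τ ∈ tri G → g (G \ edges τ) ≤ g G) :
    ∀ (k : ℕ) (G : Finset (Sym2 (Fin n))), G.card = k → lev y g G ≤ g G := by
  intro k
  induction k using Nat.strong_induction_on with
  | _ k ih =>
    intro G hG
    by_cases hs : y < G.card ∧ (tri G).Nonempty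
    · rw [lev_step hs.1 hs.2]
      have hT := tri_card_pos hs.2
      rw [div_le_iff₀ hT, mul_comm, ← nsmul_eq_mul, ← sum_const]
      refine sum_le_sum (fun t ht => ?_)
      exact (ih _ (by have := card_sdiff_step ht; omega) _ rfl).trans (hg G t ht)
    · rw [lev_stop hs]

lemma lev_le_lev {x y : ℕ} (hyx : y ≤ x) {g : Finset (Sym2 (Fin n)) → ℝ}
    (hg : ∀ (G : Finset (Sym2 (Fin n))) (τ : Finset (Fin n)), τ ∈ tri G → g (G \ edges τ) ≤ g G)
    (G : Finset (Sym2 (Fin n))) : lev y g G ≤ lev x g G := by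
  rw [← lev_tower hyx g _ G rfl]
  exact lev_mono (fun H => lev_le_self hg _ H rfl) _ G rfl

/-! ## The number of triangles at a level -/

/-- Coefficient in the level bound. -/
noncomputable def aa (X y : ℝ) : ℝ := X * (X - 3) * (X - 6) / (y * (y - 3) * (y - 6))

/-- Additive term in the level bound. -/
noncomputable def bb (X y : ℝ) : ℝ := X / 3 - X * (X - 3) * (X - 6) / (3 * (y - 3) * (y - 6))

lemma aa_self {X : ℝ} (h : 9 ≤ X) : aa X X = 1 := by
  unfold aa
  have h1 : X ≠ 0 := by linarith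
  have h2 : X - 3 ≠ 0 := by intro h'; linarith
  have h3 : X - 6 ≠ 0 := by intro h'; linarith
  field_simp

lemma bb_self {X : ℝ} (h : 9 ≤ X) : bb X X = 0 := by
  unfold bb
  have h1 : X ≠ 0 := by linarith
  have h2 : X - 3 ≠ 0 := by intro h'; linarith
  have h3 : X - 6 ≠ 0 := by intro h'; linarith
  field_simp
  ring

lemma bb_nonneg {X y : ℝ} (h : 9 ≤ X) (hy : X ≤ y) : 0 ≤ bb X y := by
  unfold bb
  have hp : 0 < 3 * (y - 3) * (y - 6) := by
    have : 0 < y - 3 := by linarith
    have : 0 < y - 6 := by linarith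
    positivity
  have hq : X * (X - 3) * (X - 6) / (3 * (y - 3) * (y - 6)) ≤ X / 3 := by
    rw [div_le_div_iff₀ hp (by norm_num)]
    have hX : 0 < X := by linarith
    have h1 : (X - 3) * (X - 6) ≤ (y - 3) * (y - 6) := by nlinarith
    nlinarith [mul_le_mul_of_nonneg_left h1 hX.le]
  linarith

lemma aa_bb_step {X y T : ℝ} (hX : 9 ≤ X) (hy : X + 3 ≤ y) :
    aa X (y - 3) * (T + 2 - 9 * T / y) + bb X (y - 3) = aa X y * T + bb X y := by
  unfold aa bb
  have h0 : y ≠ 0 := by intro h'; linarith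
  have h1 : y - 3 ≠ 0 := by intro h'; linarith
  have h2 : y - 6 ≠ 0 := by intro h'; linarith
  have h3 : y - 9 ≠ 0 := by intro h'; linarith
  have e1 : y - 3 - 3 = y - 6 := by ring
  have e2 : y - 3 - 6 = y - 9 := by ring
  rw [e1, e2]
  field_simp
  ring

lemma aa_nonneg {X y : ℝ} (hX : 9 ≤ X) (hy : X ≤ y) : 0 ≤ aa X y := by
  unfold aa
  have h1 : 0 ≤ X * (X - 3) * (X - 6) := by
    have : 0 ≤ X - 3 := by linarith
    have : 0 ≤ X - 6 := by linarith
    have : 0 ≤ X := by linarith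
    positivity
  have h2 : 0 ≤ y * (y - 3) * (y - 6) := by
    have : 0 ≤ y - 3 := by linarith
    have : 0 ≤ y - 6 := by linarith
    have : 0 ≤ y := by linarith
    positivity
  positivity

/-- The bound for the mean number of triangles at level `X`. -/
theorem lev_T_le {X : ℕ} (hX : 9 ≤ X) :
    ∀ (k : ℕ) (G : Finset (Sym2 (Fin n))), G.card = X + 3 * k →
      lev X Tc G ≤ aa X G.card * Tc G + bb X G.card := by
  have hXr : (9 : ℝ) ≤ X := by exact_mod_cast hX
  intro k
  induction k with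
  | zero =>
    intro G hG
    have hs : ¬ (X < G.card ∧ (tri G).Nonempty) := by omega
    have hc : G.card = X := by omega
    rw [lev_stop hs, hc, aa_self hXr, bb_self hXr]
    simp
  | succ k ih =>
    intro G hG
    have hy : (X : ℝ) + 3 ≤ (G.card : ℝ) := by
      rw [hG]
      push_cast
      have : (0 : ℝ) ≤ k := Nat.cast_nonneg k
      linarith
    by_cases hne : (tri G).Nonempty
    · rw [lev_step (by omega) hne]
      have hT := tri_card_pos hne
      have hcard : ∀ t ∈ tri G, ((G \ edges t).card : ℝ) = (G.card : ℝ) - 3 := by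
        intro t ht
        have := card_sdiff_step ht
        rw [← this]
        push_cast
        ring
      have h1 : ∑ t ∈ tri G, lev X Tc (G \ edges t)
          ≤ ∑ t ∈ tri G, (aa X ((G.card : ℝ) - 3) * Tc (G \ edges t) + bb X ((G.card : ℝ) - 3)) := by
        refine sum_le_sum (fun t ht => ?_)
        have := ih (G \ edges t) (by have := card_sdiff_step ht; omega)
        rwa [hcard t ht] at this
      have h2 : (∑ t ∈ tri G, lev X Tc (G \ edges t)) / ((tri G).card : ℝ)
          ≤ aa X ((G.card : ℝ) - 3) * ((∑ t ∈ tri G, Tc (G \ edges t)) / Tc G)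
            + bb X ((G.card : ℝ) - 3) := by
        rw [div_le_iff₀ hT]
        refine h1.trans (le_of_eq ?_)
        rw [sum_add_distrib, ← mul_sum, sum_const, nsmul_eq_mul]
        have hc : ((tri G).card : ℝ) = Tc G := rfl
        rw [hc]
        have : Tc G ≠ 0 := by rw [← hc]; exact hT.ne'
        field_simp
      refine h2.trans ?_
      rw [← aa_bb_step hXr hy]
      have h3 := step_T hne
      have h4 : 0 ≤ aa X ((G.card : ℝ) - 3) := aa_nonneg hXr (by linarith)
      have h5 := mul_le_mul_of_nonneg_left h3 h4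
      linarith
    · have hs : ¬ (X < G.card ∧ (tri G).Nonempty) := fun h => hne h.2
      rw [lev_stop hs]
      have h0 : Tc G = 0 := by
        unfold Tc
        rw [not_nonempty_iff_eq_empty.mp hne]
        simp
      rw [h0, mul_zero, zero_add]
      exact bb_nonneg hXr (by linarith)

/-! ## The key charging inequality -/

lemma Tc_anti (G : Finset (Sym2 (Fin n))) (τ : Finset (Fin n)) (_h : τ ∈ tri G) :
    Tc (G \ edges τ) ≤ Tc G := by
  unfold Tc
  have : tri (G \ edges τ) ⊆ tri G := fun t ht => (mem_tri_sdiff.mp ht).1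
  exact_mod_cast card_le_card this

lemma high_anti (R : ℕ) (G : Finset (Sym2 (Fin n))) (τ : Finset (Fin n)) :
    high R (G \ edges τ) ≤ high R G := by
  apply card_le_card
  intro t ht
  obtain ⟨h1, h2⟩ := mem_filter.mp ht
  exact mem_filter.mpr ⟨(mem_tri_sdiff.mp h1).1, lt_of_lt_of_le h2 (kill_mono G τ t)⟩

/-- A triangle that is isolated after firing `τ` had an edge of load one before. -/
lemma exists_load_one {G : Finset (Sym2 (Fin n))} {τ t : Finset (Fin n)} (hτ : τ ∈ tri G)
    (ht : t ∈ tri (G \ edges τ)) (hiso : ∀ e ∈ edges t, load (G \ edges τ) e = 1) :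
    ∃ e ∈ edges t, load G e = 1 := by
  obtain ⟨htG, hd⟩ := mem_tri_sdiff.mp ht
  have ht3 := card_of_mem_tri htG
  have hτ3 := card_of_mem_tri hτ
  -- `t` and `τ` share at most one vertex
  have hcap : (t ∩ τ).card ≤ 1 := by
    by_contra hc
    have hc2 : 1 < (t ∩ τ).card := by omega
    obtain ⟨p, hp, q, hq, hpq⟩ := one_lt_card.mp hc2
    rw [mem_inter] at hp hq
    exact Finset.disjoint_left.mp hd (mem_edges.mpr ⟨hp.1, hq.1, hpq⟩)
      (mem_edges.mpr ⟨hp.2, hq.2, hpq⟩)
  have hdiff : 2 ≤ (t \ τ).card := by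
    have := card_sdiff_add_card_inter t τ
    omega
  obtain ⟨a, ha, b, hb, hab⟩ := one_lt_card.mp (show 1 < (t \ τ).card by omega)
  rw [mem_sdiff] at ha hb
  refine ⟨s(a, b), mem_edges.mpr ⟨ha.1, hb.1, hab⟩, ?_⟩
  have he := hiso s(a, b) (mem_edges.mpr ⟨ha.1, hb.1, hab⟩)
  have hge := load_mono G τ s(a, b)
  have hle : load G s(a, b) ≤ load (G \ edges τ) s(a, b) := by
    apply card_le_card
    intro t' ht'
    obtain ⟨h1, h2⟩ := mem_filter.mp ht'
    refine mem_filter.mpr ⟨mem_tri_sdiff.mpr ⟨h1, ?_⟩, h2⟩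
    obtain ⟨ha', hb', _⟩ := mem_edges.mp h2
    refine Finset.disjoint_left.mpr (fun f hf hf' => ?_)
    induction f with
    | _ p q =>
      obtain ⟨hp, hq, hpq⟩ := mem_edges.mp hf
      obtain ⟨hp', hq', _⟩ := mem_edges.mp hf'
      have ht'3 := card_of_mem_tri h1
      have hsub : ({a, b} : Finset (Fin n)) ∪ {p, q} ⊆ t' := by
        intro x hx
        simp only [mem_union, mem_insert, mem_singleton] at hx
        rcases hx with (rfl | rfl) | (rfl | rfl) <;> assumption
      have hcard : (({a, b} : Finset (Fin n)) ∪ {p, q}).card = 4 := by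
        rw [card_union_of_disjoint, card_pair hab, card_pair hpq]
        refine Finset.disjoint_left.mpr (fun x hx hx' => ?_)
        simp only [mem_insert, mem_singleton] at hx hx'
        rcases hx with rfl | rfl <;> rcases hx' with rfl | rfl
        · exact ha.2 hp'
        · exact ha.2 hq'
        · exact hb.2 hp'
        · exact hb.2 hq'
      have := card_le_card hsub
      omega
  omega

lemma load_one_unique {G : Finset (Sym2 (Fin n))} {e : Sym2 (Fin n)} (h : load G e = 1)
    {t₁ t₂ : Finset (Fin n)} (h1 : t₁ ∈ tri G) (he1 : e ∈ edges t₁) (h2 : t₂ ∈ tri G)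
    (he2 : e ∈ edges t₂) : t₁ = t₂ := by
  have hc : ((tri G).filter (fun t => e ∈ edges t)).card ≤ 1 := by
    rw [show ((tri G).filter (fun t => e ∈ edges t)).card = load G e from rfl, h]
  exact card_le_one.mp hc _ (mem_filter.mpr ⟨h1, he1⟩) _ (mem_filter.mpr ⟨h2, he2⟩)

lemma mem_nbr_symm {G : Finset (Sym2 (Fin n))} {t s : Finset (Fin n)} (hs : s ∈ tri G)
    (h : t ∈ nbr G s) : s ∈ nbr G t := by
  obtain ⟨_, hne, hd⟩ := mem_filter.mp h
  exact mem_filter.mpr ⟨hs, Ne.symm hne, fun h' => hd h'.symm⟩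

open Classical in
/-- A chosen competitor of `t`, when there is one. -/
noncomputable def comp (G : Finset (Sym2 (Fin n))) (t : Finset (Fin n)) : Finset (Fin n) :=
  if h : (nbr G t).Nonempty then h.choose else t

lemma comp_mem {G : Finset (Sym2 (Fin n))} {t : Finset (Fin n)} (h : (nbr G t).Nonempty) :
    comp G t ∈ nbr G t := by
  unfold comp
  rw [dif_pos h]
  exact h.choose_spec

lemma nbr_nonempty {G : Finset (Sym2 (Fin n))} {t : Finset (Fin n)} (ht : t ∈ tri G)
    (hiso : ¬ ∀ e ∈ edges t, load G e = 1) : (nbr G t).Nonempty := by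
  push Not at hiso
  obtain ⟨e, he, hne⟩ := hiso
  have h1 := load_pos ht he
  have hk : 0 < kill G t := by
    unfold kill
    exact sum_pos' (fun _ _ => Nat.zero_le _) ⟨e, he, by omega⟩
  rw [← card_nbr ht] at hk
  exact card_pos.mp hk

/-- The triangles that become isolated when `τ` fires. -/
def newIso (G : Finset (Sym2 (Fin n))) (τ : Finset (Fin n)) : Finset (Finset (Fin n)) :=
  (tri (G \ edges τ)).filter (fun t =>
    (∀ e ∈ edges t, load (G \ edges τ) e = 1) ∧ ¬ ∀ e ∈ edges t, load G e = 1)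

lemma iso_step {G : Finset (Sym2 (Fin n))} {τ : Finset (Fin n)} (hτ : τ ∈ tri G) :
    isoCount (G \ edges τ) + (if ∀ e ∈ edges τ, load G e = 1 then 1 else 0)
      ≤ isoCount G + (newIso G τ).card := by
  set A := (tri (G \ edges τ)).filter (fun t => ∀ e ∈ edges t, load (G \ edges τ) e = 1) with hA
  have h1 : isoCount (G \ edges τ) = (A.filter (fun t => ∀ e ∈ edges t, load G e = 1)).card
      + (A.filter (fun t => ¬ ∀ e ∈ edges t, load G e = 1)).card :=
    (card_filter_add_card_filter_not _).symm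
  have h2 : A.filter (fun t => ¬ ∀ e ∈ edges t, load G e = 1) = newIso G τ := by
    rw [hA, filter_filter]
    rfl
  rw [h1, h2]
  have hsub : A.filter (fun t => ∀ e ∈ edges t, load G e = 1)
      ⊆ (tri G).filter (fun t => ∀ e ∈ edges t, load G e = 1) := by
    intro t ht
    obtain ⟨h3, h4⟩ := mem_filter.mp ht
    exact mem_filter.mpr ⟨(mem_tri_sdiff.mp (mem_filter.mp h3).1).1, h4⟩
  by_cases hi : ∀ e ∈ edges τ, load G e = 1
  · rw [if_pos hi]
    have hnot : τ ∉ A.filter (fun t => ∀ e ∈ edges t, load G e = 1) := by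
      intro h
      exact not_mem_self hτ (mem_filter.mp (mem_filter.mp h).1).1
    have hins : insert τ (A.filter (fun t => ∀ e ∈ edges t, load G e = 1))
        ⊆ (tri G).filter (fun t => ∀ e ∈ edges t, load G e = 1) := by
      intro t ht
      rcases mem_insert.mp ht with rfl | ht
      · exact mem_filter.mpr ⟨hτ, hi⟩
      · exact hsub ht
    have := card_le_card hins
    rw [card_insert_of_notMem hnot] at this
    unfold isoCount
    omega
  · rw [if_neg hi]
    have := card_le_card hsub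
    unfold isoCount
    omega

/-- The competitor of a newly isolated triangle is hit by the firing triangle. -/
lemma comp_of_newIso {G : Finset (Sym2 (Fin n))} {τ t : Finset (Fin n)} (hτ : τ ∈ tri G)
    (ht : t ∈ newIso G τ) : comp G t ∈ nbr G τ ∧ (nbr G t).Nonempty := by
  obtain ⟨h1, h2, h3⟩ := mem_filter.mp ht
  obtain ⟨htG, hd⟩ := mem_tri_sdiff.mp h1
  have hne := nbr_nonempty htG h3
  refine ⟨?_, hne⟩
  obtain ⟨h4, h5, h6⟩ := mem_filter.mp (comp_mem hne)
  obtain ⟨e, he1, he2⟩ := Finset.not_disjoint_iff.mp h6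
  refine mem_filter.mpr ⟨h4, ?_, ?_⟩
  · intro h
    rw [h] at he1
    exact (Finset.disjoint_left.mp hd he2) he1
  · intro h
    have h7 : comp G t ∈ tri (G \ edges τ) := mem_tri_sdiff.mpr ⟨h4, h⟩
    exact h5 (load_one_unique (h2 e he2) h7 he1 h1 he2)

/-- The triangles hit by `τ` with kill rate above `R`. -/
def hiSet (R : ℕ) (G : Finset (Sym2 (Fin n))) (τ : Finset (Fin n)) : Finset (Finset (Fin n)) :=
  (nbr G τ).filter (fun t => R < kill G t)

lemma high_step (R : ℕ) (G : Finset (Sym2 (Fin n))) (τ : Finset (Fin n)) :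
    high R (G \ edges τ) + (hiSet R G τ).card ≤ high R G := by
  unfold high
  rw [← card_union_of_disjoint]
  · apply card_le_card
    intro t ht
    rcases mem_union.mp ht with h | h
    · obtain ⟨h1, h2⟩ := mem_filter.mp h
      exact mem_filter.mpr ⟨(mem_tri_sdiff.mp h1).1, lt_of_lt_of_le h2 (kill_mono G τ t)⟩
    · obtain ⟨h1, h2⟩ := mem_filter.mp h
      exact mem_filter.mpr ⟨(mem_filter.mp h1).1, h2⟩
  · refine Finset.disjoint_left.mpr (fun t h1 h2 => ?_)
    obtain ⟨h3, _⟩ := mem_filter.mp h1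
    obtain ⟨h4, _⟩ := mem_filter.mp h2
    exact (mem_filter.mp h4).2.2 (mem_tri_sdiff.mp h3).2

lemma newHi_card (R : ℕ) {G : Finset (Sym2 (Fin n))} {τ : Finset (Fin n)} (hτ : τ ∈ tri G) :
    ((newIso G τ).filter (fun t => R < kill G (comp G t))).card ≤ 3 * (hiSet R G τ).card := by
  refine card_le_mul_card_image_of_maps_to (f := comp G) ?_ 3 ?_
  · intro t ht
    obtain ⟨h1, h2⟩ := mem_filter.mp ht
    exact mem_filter.mpr ⟨(comp_of_newIso hτ h1).1, h2⟩
  · intro b hb
    have hbtri : b ∈ tri G := (mem_filter.mp (mem_filter.mp hb).1).1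
    set F := ((newIso G τ).filter (fun t => R < kill G (comp G t))).filter (fun a => comp G a = b)
      with hF
    have hsub : F ⊆ (edges b).biUnion (fun e => F.filter (fun t => e ∈ edges t)) := by
      intro t ht
      obtain ⟨h1, h2⟩ := mem_filter.mp ht
      obtain ⟨h3, _⟩ := mem_filter.mp h1
      have hne := (comp_of_newIso hτ h3).2
      obtain ⟨_, _, h6⟩ := mem_filter.mp (comp_mem hne)
      rw [h2] at h6
      obtain ⟨e, he1, he2⟩ := Finset.not_disjoint_iff.mp h6
      exact mem_biUnion.mpr ⟨e, he1, mem_filter.mpr ⟨ht, he2⟩⟩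
    have hone : ∀ e ∈ edges b, (F.filter (fun t => e ∈ edges t)).card ≤ 1 := by
      intro e _
      refine card_le_one.mpr (fun t₁ h₁ t₂ h₂ => ?_)
      obtain ⟨h1a, h1b⟩ := mem_filter.mp h₁
      obtain ⟨h2a, h2b⟩ := mem_filter.mp h₂
      have m1 : t₁ ∈ newIso G τ := (mem_filter.mp (mem_filter.mp h1a).1).1
      have m2 : t₂ ∈ newIso G τ := (mem_filter.mp (mem_filter.mp h2a).1).1
      obtain ⟨n1, n2, _⟩ := mem_filter.mp m1
      obtain ⟨n3, _, _⟩ := mem_filter.mp m2
      exact load_one_unique (n2 e h1b) n1 h1b n3 h2b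
    calc F.card ≤ _ := card_le_card hsub
      _ ≤ ∑ e ∈ edges b, (F.filter (fun t => e ∈ edges t)).card := card_biUnion_le
      _ ≤ ∑ _e ∈ edges b, 1 := sum_le_sum hone
      _ = 3 := by simp [card_edges_of_mem_tri hbtri]

/-- The triangles with a load one edge, not isolated, with a competitor of small kill rate. -/
noncomputable def lowSet (R : ℕ) (G : Finset (Sym2 (Fin n))) : Finset (Finset (Fin n)) :=
  (tri G).filter (fun t => (¬ ∀ e ∈ edges t, load G e = 1) ∧ (∃ e ∈ edges t, load G e = 1) ∧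
    kill G (comp G t) ≤ R)

lemma sum_newLo (R : ℕ) (G : Finset (Sym2 (Fin n))) :
    ∑ τ ∈ tri G, ((newIso G τ).filter (fun t => ¬ R < kill G (comp G t))).card
      ≤ (R - 1) * (lowSet R G).card := by
  have hsub : ∀ τ ∈ tri G, (newIso G τ).filter (fun t => ¬ R < kill G (comp G t))
      = (lowSet R G).filter (fun t => t ∈ (newIso G τ).filter
          (fun t => ¬ R < kill G (comp G t))) := by
    intro τ hτ
    ext t
    simp only [mem_filter]
    constructor
    · rintro ⟨h1, h2⟩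
      obtain ⟨h3, h4, h5⟩ := mem_filter.mp h1
      exact ⟨mem_filter.mpr ⟨(mem_tri_sdiff.mp h3).1, h5, exists_load_one hτ h3 h4, not_lt.mp h2⟩,
        h1, h2⟩
    · rintro ⟨_, h⟩
      exact h
  have h1 : ∑ τ ∈ tri G, ((newIso G τ).filter (fun t => ¬ R < kill G (comp G t))).card
      = ∑ t ∈ lowSet R G, ((tri G).filter (fun τ => t ∈ (newIso G τ).filter
          (fun t => ¬ R < kill G (comp G t)))).card := by
    rw [sum_congr rfl (fun τ hτ => by rw [hsub τ hτ])]
    simp only [card_eq_sum_ones, sum_filter]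
    rw [sum_comm]
  rw [h1]
  have h2 : ∀ t ∈ lowSet R G, ((tri G).filter (fun τ => t ∈ (newIso G τ).filter
      (fun t => ¬ R < kill G (comp G t)))).card ≤ R - 1 := by
    intro t ht
    obtain ⟨h3, h4, _, h6⟩ := mem_filter.mp ht
    have hne := nbr_nonempty h3 h4
    have hc := comp_mem hne
    have hctri : comp G t ∈ tri G := (mem_filter.mp hc).1
    have htn : t ∈ nbr G (comp G t) := mem_nbr_symm h3 hc
    have hsub2 : (tri G).filter (fun τ => t ∈ (newIso G τ).filter
        (fun t => ¬ R < kill G (comp G t))) ⊆ (nbr G (comp G t)).erase t := by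
      intro τ hτ
      obtain ⟨h7, h8⟩ := mem_filter.mp hτ
      obtain ⟨h9, _⟩ := mem_filter.mp h8
      refine mem_erase.mpr ⟨?_, mem_nbr_symm h7 (comp_of_newIso h7 h9).1⟩
      rintro rfl
      exact not_mem_self h7 (mem_filter.mp h9).1
    have h10 := card_le_card hsub2
    rw [card_erase_of_mem htn, card_nbr hctri] at h10
    omega
  calc _ ≤ ∑ _t ∈ lowSet R G, (R - 1) := sum_le_sum h2
    _ = _ := by rw [sum_const, smul_eq_mul, mul_comm]

/-- The edges that die when `τ` fires. -/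
def newDead (G : Finset (Sym2 (Fin n))) (τ : Finset (Fin n)) : Finset (Sym2 (Fin n)) :=
  (G \ edges τ).filter (fun e => load (G \ edges τ) e = 0 ∧ load G e ≠ 0)

lemma dead_step {G : Finset (Sym2 (Fin n))} (τ : Finset (Fin n)) (hτ : τ ∈ tri G) :
    dead G + (newDead G τ).card ≤ dead (G \ edges τ) := by
  unfold dead
  rw [← card_union_of_disjoint]
  · apply card_le_card
    intro e he
    rcases mem_union.mp he with h | h
    · obtain ⟨h1, h2⟩ := mem_filter.mp h
      refine mem_filter.mpr ⟨mem_sdiff.mpr ⟨h1, fun h3 => ?_⟩, ?_⟩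
      · have := load_pos hτ h3
        omega
      · have := load_mono G τ e
        omega
    · obtain ⟨h1, h2, _⟩ := mem_filter.mp h
      exact mem_filter.mpr ⟨h1, h2⟩
  · refine Finset.disjoint_left.mpr (fun e h1 h2 => ?_)
    exact (mem_filter.mp h2).2.2 (mem_filter.mp h1).2

lemma lowSet_le_newDead (R : ℕ) (G : Finset (Sym2 (Fin n))) :
    (lowSet R G).card ≤ ∑ τ ∈ tri G, (newDead G τ).card := by
  have hmaps : ∀ t ∈ lowSet R G, comp G t ∈ tri G := by
    intro t ht
    obtain ⟨h3, h4, _⟩ := mem_filter.mp ht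
    exact (mem_filter.mp (comp_mem (nbr_nonempty h3 h4))).1
  rw [card_eq_sum_card_fiberwise hmaps]
  refine sum_le_sum (fun τ hτ => ?_)
  refine card_le_card_of_forall_subsingleton
    (fun t e => e ∈ edges t ∧ load G e = 1) ?_ ?_
  · intro t ht
    obtain ⟨h1, h2⟩ := mem_filter.mp ht
    obtain ⟨h3, h4, ⟨e, he, hl⟩, _⟩ := mem_filter.mp h1
    refine ⟨e, ?_, he, hl⟩
    have hc := comp_mem (nbr_nonempty h3 h4)
    rw [h2] at hc
    obtain ⟨_, hne, hd⟩ := mem_filter.mp hc
    refine mem_filter.mpr ⟨mem_sdiff.mpr ⟨edges_subset h3 he, fun hm => ?_⟩, ?_, by omega⟩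
    · exact hne (load_one_unique hl hτ hm h3 he)
    · have hnone : ∀ s ∈ tri (G \ edges τ), e ∉ edges s := by
        intro s hs hes
        obtain ⟨h5, h6⟩ := mem_tri_sdiff.mp hs
        have := load_one_unique hl h5 hes h3 he
        rw [this] at h6
        exact hd h6.symm
      exact card_eq_zero.mpr (filter_eq_empty_iff.mpr hnone)
  · intro e _ t₁ h₁ t₂ h₂
    simp only [Set.mem_ofPred_eq] at h₁ h₂
    have m1 : t₁ ∈ tri G := (mem_filter.mp (mem_filter.mp h₁.1).1).1
    have m2 : t₂ ∈ tri G := (mem_filter.mp (mem_filter.mp h₂.1).1).1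
    exact load_one_unique h₁.2.2 m1 h₁.2.1 m2 h₂.2.1

/-- The pointwise (per state) form of the charging inequality. -/
lemma charge (R : ℕ) (G : Finset (Sym2 (Fin n))) :
    ∑ τ ∈ tri G, (isoCount (G \ edges τ) + (if ∀ e ∈ edges τ, load G e = 1 then 1 else 0)
        + 3 * high R (G \ edges τ)) + (R - 1) * ∑ _τ ∈ tri G, dead G
      ≤ ∑ _τ ∈ tri G, (isoCount G + 3 * high R G)
        + (R - 1) * ∑ τ ∈ tri G, dead (G \ edges τ) := by
  have h1 : ∀ τ ∈ tri G, isoCount (G \ edges τ) + (if ∀ e ∈ edges τ, load G e = 1 then 1 else 0)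
        + 3 * high R (G \ edges τ)
      ≤ isoCount G + 3 * high R G
        + ((newIso G τ).filter (fun t => ¬ R < kill G (comp G t))).card := by
    intro τ hτ
    have a1 := iso_step hτ
    have a2 := high_step R G τ
    have a3 := newHi_card R hτ
    have a4 := card_filter_add_card_filter_not (s := newIso G τ)
      (fun t => R < kill G (comp G t))
    omega
  have h2 := sum_le_sum h1
  rw [sum_add_distrib (f := fun _ => isoCount G + 3 * high R G)] at h2
  have h3 := sum_newLo R G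
  have h4 := lowSet_le_newDead R G
  have h5 : ∑ _τ ∈ tri G, dead G + ∑ τ ∈ tri G, (newDead G τ).card
      ≤ ∑ τ ∈ tri G, dead (G \ edges τ) := by
    rw [← sum_add_distrib]
    exact sum_le_sum (fun τ hτ => dead_step τ hτ)
  have h6 : (R - 1) * (lowSet R G).card ≤ (R - 1) * ∑ τ ∈ tri G, (newDead G τ).card :=
    Nat.mul_le_mul_left _ h4
  have h7 : (R - 1) * (∑ _τ ∈ tri G, dead G + ∑ τ ∈ tri G, (newDead G τ).card)
      ≤ (R - 1) * ∑ τ ∈ tri G, dead (G \ edges τ) := Nat.mul_le_mul_left _ h5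
  rw [mul_add] at h7
  omega

/-- **The charging theorem**: for every graph and every `R ≥ 0`. -/
theorem expS_le (R : ℕ) : ∀ (k : ℕ) (G : Finset (Sym2 (Fin n))), G.card = k →
    expS G + ((R - 1 : ℕ) : ℝ) * (dead G : ℝ)
      ≤ ((R - 1 : ℕ) : ℝ) * expF G + (isoCount G : ℝ) + 3 * (high R G : ℝ) := by
  intro k
  induction k using Nat.strong_induction_on with
  | _ k ih =>
    intro G hG
    by_cases hne : (tri G).Nonempty
    · have hT := tri_card_pos hne
      rw [expS_eq, expF_eq, if_pos hne, if_pos hne]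
      have hc := charge R G
      have hc' : (∑ τ ∈ tri G, ((isoCount (G \ edges τ) : ℝ)
            + (if ∀ e ∈ edges τ, load G e = 1 then 1 else 0) + 3 * (high R (G \ edges τ) : ℝ)))
          + ((R - 1 : ℕ) : ℝ) * (((tri G).card : ℝ) * (dead G : ℝ))
          ≤ ((tri G).card : ℝ) * ((isoCount G : ℝ) + 3 * (high R G : ℝ))
            + ((R - 1 : ℕ) : ℝ) * ∑ τ ∈ tri G, (dead (G \ edges τ) : ℝ) := by
        have := (Nat.cast_le (α := ℝ)).mpr hc
        simp only [sum_const, smul_eq_mul] at this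
        push_cast at this
        exact this
      have hih : ∀ τ ∈ tri G, expS (G \ edges τ)
            + (if ∀ e ∈ edges τ, load G e = 1 then (1 : ℝ) else 0)
          ≤ ((R - 1 : ℕ) : ℝ) * expF (G \ edges τ)
            + ((isoCount (G \ edges τ) : ℝ)
              + (if ∀ e ∈ edges τ, load G e = 1 then (1 : ℝ) else 0)
              + 3 * (high R (G \ edges τ) : ℝ))
            - ((R - 1 : ℕ) : ℝ) * (dead (G \ edges τ) : ℝ) := by
        intro τ hτ
        have := ih _ (by have := card_sdiff_step hτ; omega) (G \ edges τ) rfl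
        linarith
      have hsum := sum_le_sum hih
      have e2 : ∑ τ ∈ tri G, (((R - 1 : ℕ) : ℝ) * expF (G \ edges τ)
            + ((isoCount (G \ edges τ) : ℝ)
              + (if ∀ e ∈ edges τ, load G e = 1 then (1 : ℝ) else 0)
              + 3 * (high R (G \ edges τ) : ℝ))
            - ((R - 1 : ℕ) : ℝ) * (dead (G \ edges τ) : ℝ))
          = ((R - 1 : ℕ) : ℝ) * (∑ τ ∈ tri G, expF (G \ edges τ))
            + (∑ τ ∈ tri G, ((isoCount (G \ edges τ) : ℝ)
              + (if ∀ e ∈ edges τ, load G e = 1 then (1 : ℝ) else 0)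
              + 3 * (high R (G \ edges τ) : ℝ)))
            - ((R - 1 : ℕ) : ℝ) * ∑ τ ∈ tri G, (dead (G \ edges τ) : ℝ) := by
        rw [sum_sub_distrib, sum_add_distrib, mul_sum, mul_sum]
      rw [e2] at hsum
      have hgoal : (∑ τ ∈ tri G, (expS (G \ edges τ)
            + if ∀ e ∈ edges τ, load G e = 1 then (1 : ℝ) else 0)) / ((tri G).card : ℝ)
          ≤ ((R - 1 : ℕ) : ℝ) * ((∑ τ ∈ tri G, expF (G \ edges τ)) / ((tri G).card : ℝ))
            + (isoCount G : ℝ) + 3 * (high R G : ℝ) - ((R - 1 : ℕ) : ℝ) * (dead G : ℝ) := by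
        rw [div_le_iff₀ hT]
        have e : (((R - 1 : ℕ) : ℝ) * ((∑ τ ∈ tri G, expF (G \ edges τ)) / ((tri G).card : ℝ))
            + (isoCount G : ℝ) + 3 * (high R G : ℝ) - ((R - 1 : ℕ) : ℝ) * (dead G : ℝ))
              * ((tri G).card : ℝ)
            = ((R - 1 : ℕ) : ℝ) * (∑ τ ∈ tri G, expF (G \ edges τ))
              + ((tri G).card : ℝ) * ((isoCount G : ℝ) + 3 * (high R G : ℝ))
              - ((R - 1 : ℕ) : ℝ) * (((tri G).card : ℝ) * (dead G : ℝ)) := by
          field_simp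
          ring
        rw [e]
        linarith
      linarith
    · rw [expS_eq, expF_eq, if_neg hne, if_neg hne]
      have hempty : tri G = ∅ := not_nonempty_iff_eq_empty.mp hne
      have hd : dead G = G.card := by
        unfold dead
        rw [filter_true_of_mem]
        intro e _
        simp [load, hempty]
      have hi : 0 ≤ (isoCount G : ℝ) := Nat.cast_nonneg _
      have hh : 0 ≤ (high R G : ℝ) := Nat.cast_nonneg _
      rw [hd]
      linarith

/-- Each isolated firing uses three edges. -/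
theorem expS_le_third : ∀ (k : ℕ) (G : Finset (Sym2 (Fin n))), G.card = k →
    expS G ≤ (G.card : ℝ) / 3 := by
  intro k
  induction k using Nat.strong_induction_on with
  | _ k ih =>
    intro G hG
    by_cases hne : (tri G).Nonempty
    · have hT := tri_card_pos hne
      rw [expS_eq, if_pos hne, div_le_iff₀ hT]
      have h1 : ∀ τ ∈ tri G, expS (G \ edges τ)
          + (if ∀ e ∈ edges τ, load G e = 1 then (1 : ℝ) else 0) ≤ (G.card : ℝ) / 3 := by
        intro τ hτ
        have h2 := ih _ (by have := card_sdiff_step hτ; omega) (G \ edges τ) rfl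
        have h3 : ((G \ edges τ).card : ℝ) + 3 = (G.card : ℝ) := by
          exact_mod_cast card_sdiff_step hτ
        split_ifs <;> linarith
      have := sum_le_sum h1
      rw [sum_const, nsmul_eq_mul] at this
      linarith
    · rw [expS_eq, if_neg hne]
      positivity

/-! ## Combination at one state -/

lemma expF_nonneg : ∀ (k : ℕ) (G : Finset (Sym2 (Fin n))), G.card = k → 0 ≤ expF G := by
  intro k
  induction k using Nat.strong_induction_on with
  | _ k ih =>
    intro G hG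
    rw [expF_eq]
    split_ifs with hne
    · refine div_nonneg (sum_nonneg (fun t ht => ?_)) (tri_card_pos hne).le
      exact ih _ (by have := card_sdiff_step ht; omega) _ rfl
    · positivity

lemma psi_five : psi 5 = 128 / 735 := by
  have h3 : psi 3 = 8 / 35 := by
    have := psi_add_two 1
    rw [show 1 + 2 = 3 from rfl, show 1 + 1 = 2 from rfl, psi_two] at this
    rw [this]; norm_num
  have h4 : psi 4 = 48 / 245 := by
    have := psi_add_two 2
    rw [show 2 + 2 = 4 from rfl, show 2 + 1 = 3 from rfl, h3] at this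
    rw [this]; norm_num
  have := psi_add_two 3
  rw [show 3 + 2 = 5 from rfl, show 3 + 1 = 4 from rfl, h4] at this
  rw [this]; norm_num

lemma psi_six : psi 6 = 256 / 1617 := by
  have := psi_add_two 4
  rw [show 4 + 2 = 6 from rfl, show 4 + 1 = 5 from rfl, psi_five] at this
  rw [this]; norm_num

lemma Del_six : Del 6 = 128 / 8085 := by
  have := Del_succ 5
  rw [show 5 + 1 = 6 from rfl, psi_five, psi_six] at this
  rw [this]; norm_num

/-- The chord of `ψ` through `5` and `6`. -/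
lemma chord (y : ℕ) : (2048 / 8085 : ℝ) - 128 / 8085 * (y : ℝ) ≤ psi y := by
  rcases le_or_gt y 5 with h | h
  · have hk : y + (5 - y) = 5 := by omega
    have h1 := psi_convex (5 - y) y
    rw [hk, psi_five] at h1
    have h2 : Del 6 ≤ Del 5 := Del_anti (by norm_num) (by norm_num)
    rw [Del_six] at h2
    have h3 : ((5 - y : ℕ) : ℝ) = 5 - (y : ℝ) := by
      rw [Nat.cast_sub h]
      norm_num
    rw [h3] at h1
    have h4 : (0 : ℝ) ≤ 5 - (y : ℝ) := by
      rw [← h3]
      exact Nat.cast_nonneg _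
    have h5 := mul_le_mul_of_nonneg_left h2 h4
    linarith
  · have key : ∀ k : ℕ, psi 6 - (k : ℝ) * (128 / 8085) ≤ psi (6 + k) := by
      intro k
      induction k with
      | zero => simp
      | succ k ih =>
        have h1 := Del_succ (6 + k)
        have h2 : Del (6 + k + 1) ≤ Del 6 := Del_anti (by norm_num) (by omega)
        rw [Del_six] at h2
        rw [show 6 + (k + 1) = 6 + k + 1 from rfl]
        push_cast
        linarith
    obtain ⟨k, rfl⟩ : ∃ k, y = 6 + k := ⟨y - 6, by omega⟩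
    have := key k
    rw [psi_six] at this
    push_cast
    linarith

lemma Phi_lower (G : Finset (Sym2 (Fin n))) :
    (2048 / 8085 : ℝ) * (G.card : ℝ) - 128 / 8085 * (3 * Tc G) ≤ ∑ e ∈ G, psi (load G e) := by
  have h := sum_le_sum (fun e (_ : e ∈ G) => chord (load G e))
  rw [sum_sub_distrib, sum_const, nsmul_eq_mul, ← mul_sum, sum_load] at h
  linarith

lemma min_sqrt {a b c s : ℝ} (ha : 0 ≤ a) (hb : 0 ≤ b) (hc : 0 ≤ c) (h1 : s ≤ a) (h2 : s ≤ c + b) :
    s ≤ c + Real.sqrt (a * b) := by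
  rcases le_total a b with h | h
  · have h3 : a ≤ Real.sqrt (a * b) := Real.le_sqrt_of_sq_le (by nlinarith)
    linarith
  · have h3 : b ≤ Real.sqrt (a * b) := Real.le_sqrt_of_sq_le (by nlinarith)
    linarith

/-- The combination of `main_bound` with the charging theorem at one state. -/
lemma state_bound (R : ℕ) (G : Finset (Sym2 (Fin n))) :
    ∑ e ∈ G, psi (load G e) ≤ (1 + 9 / 7 * ((R - 1 : ℕ) : ℝ)) * expF G + 9 / 7 * (isoCount G : ℝ)
      + 9 / 7 * Real.sqrt ((G.card : ℝ) * (high R G : ℝ)) := by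
  have h1 := main_bound _ G rfl
  have h2 := expS_le R _ G rfl
  have h3 := expS_le_third _ G rfl
  have hF := expF_nonneg _ G rfl
  have hr : (0 : ℝ) ≤ ((R - 1 : ℕ) : ℝ) := Nat.cast_nonneg _
  have hd : (0 : ℝ) ≤ (dead G : ℝ) := Nat.cast_nonneg _
  have hi : (0 : ℝ) ≤ (isoCount G : ℝ) := Nat.cast_nonneg _
  have hh : (0 : ℝ) ≤ (high R G : ℝ) := Nat.cast_nonneg _
  have hrd := mul_nonneg hr hd
  have hrF := mul_nonneg hr hF
  have h4 := min_sqrt (a := (G.card : ℝ) / 3) (b := 3 * (high R G : ℝ))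
    (c := ((R - 1 : ℕ) : ℝ) * expF G + (isoCount G : ℝ)) (s := expS G) (by positivity)
    (by positivity) (by positivity) h3 (by linarith)
  have h5 : (G.card : ℝ) / 3 * (3 * (high R G : ℝ)) = (G.card : ℝ) * (high R G : ℝ) := by ring
  rw [h5] at h4
  linarith

/-- The root of the number of triangles of large kill rate. -/
noncomputable def Sq (R : ℕ) (G : Finset (Sym2 (Fin n))) : ℝ := Real.sqrt (high R G : ℝ)

lemma high_eq_zero {R : ℕ} {G : Finset (Sym2 (Fin n))} (h : ¬ (tri G).Nonempty) : high R G = 0 := by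
  unfold high
  rw [not_nonempty_iff_eq_empty.mp h]
  simp

lemma good_bound (X R : ℕ) (G : Finset (Sym2 (Fin n)))
    (hgood : G.card = X ∨ (X ≤ G.card ∧ ¬ (tri G).Nonempty)) :
    (2048 / 8085 : ℝ) * (X : ℝ) - 128 / 8085 * (3 * Tc G)
      ≤ (1 + 9 / 7 * ((R - 1 : ℕ) : ℝ)) * expF G + 9 / 7 * (isoCount G : ℝ)
        + 9 / 7 * (Real.sqrt (X : ℝ) * Sq R G) := by
  have h1 := Phi_lower G
  have h2 := state_bound R G
  have hle : (X : ℝ) ≤ (G.card : ℝ) := by
    rcases hgood with h | h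
    · rw [h]
    · exact_mod_cast h.1
  have h3 : Real.sqrt ((G.card : ℝ) * (high R G : ℝ)) ≤ Real.sqrt (X : ℝ) * Sq R G := by
    rcases hgood with h | h
    · rw [h, Sq, Real.sqrt_mul (Nat.cast_nonneg _)]
    · rw [Sq, high_eq_zero h.2]
      simp
  linarith

/-- One level of the telescoping. -/
lemma one_level {R : ℕ} (hR : 1 ≤ R) {θ : ℝ} (hθ : 0 < θ) (y : ℕ) (G : Finset (Sym2 (Fin n)))
    (hgood : G.card = y + 3 ∨ (y + 3 ≤ G.card ∧ ¬ (tri G).Nonempty)) :
    Sq R G ≤ (θ / (2 * R) + 1 / (2 * θ)) * Tc G + (-(θ / (2 * R))) * lev y Tc G := by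
  have hRr : (0 : ℝ) < R := by exact_mod_cast hR
  by_cases hne : (tri G).Nonempty
  · have hc : G.card = y + 3 := by
      rcases hgood with h | h
      · exact h
      · exact absurd hne h.2
    have hT : 0 < Tc G := tri_card_pos hne
    have hlev : lev y Tc G = (∑ τ ∈ tri G, Tc (G \ edges τ)) / Tc G := by
      rw [lev_step (by omega) hne]
      congr 1
      refine sum_congr rfl (fun τ hτ => ?_)
      have h1 := card_sdiff_step hτ
      exact lev_stop (fun h => by omega)
    have hstep : ∀ τ ∈ tri G, Tc (G \ edges τ) = Tc G - 1 - (kill G τ : ℝ) := by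
      intro τ hτ
      have := card_tri_step hτ
      unfold Tc
      rw [← this]
      push_cast
      ring
    have hQ : (R : ℝ) * (high R G : ℝ) ≤ ∑ τ ∈ tri G, (kill G τ : ℝ) := by
      have h1 : (R : ℝ) * (high R G : ℝ)
          = ∑ _τ ∈ (tri G).filter (fun t => R < kill G t), (R : ℝ) := by
        rw [sum_const, nsmul_eq_mul]
        unfold high
        ring
      rw [h1]
      calc _ ≤ ∑ τ ∈ (tri G).filter (fun t => R < kill G t), (kill G τ : ℝ) := by
            refine sum_le_sum (fun τ hτ => ?_)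
            have := (mem_filter.mp hτ).2
            exact_mod_cast this.le
        _ ≤ _ := sum_le_sum_of_subset_of_nonneg (filter_subset _ _)
            (fun _ _ _ => Nat.cast_nonneg _)
    rw [hlev, sum_congr rfl hstep, sum_sub_distrib, sum_sub_distrib, sum_const, sum_const,
      nsmul_eq_mul, nsmul_eq_mul, mul_one]
    have hc' : ((tri G).card : ℝ) = Tc G := rfl
    rw [hc']
    set Q := ∑ τ ∈ tri G, (kill G τ : ℝ) with hQdef
    set p := Sq R G with hp
    have hp0 : 0 ≤ p := Real.sqrt_nonneg _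
    have hp2 : p ^ 2 = (high R G : ℝ) := Real.sq_sqrt (Nat.cast_nonneg _)
    have hfin : (Tc G * Tc G - Tc G - Q) / Tc G = Tc G - 1 - Q / Tc G := by
      field_simp
    rw [hfin]
    have hA : p ≤ θ / 2 * (p ^ 2 / Tc G) + Tc G / (2 * θ) := by
      have e : θ / 2 * (p ^ 2 / Tc G) + Tc G / (2 * θ)
          = (θ ^ 2 * p ^ 2 + Tc G ^ 2) / (2 * θ * Tc G) := by
        field_simp
      rw [e, le_div_iff₀ (by positivity)]
      nlinarith [sq_nonneg (θ * p - Tc G)]
    have hB : θ / 2 * (p ^ 2 / Tc G) ≤ θ / (2 * R) * (Q / Tc G) := by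
      rw [hp2]
      have h1 : (high R G : ℝ) ≤ Q / R := by
        rw [le_div_iff₀ hRr]
        linarith
      have h2 : θ / (2 * R) * (Q / Tc G) = θ / 2 * ((Q / R) / Tc G) := by
        field_simp
      rw [h2]
      exact mul_le_mul_of_nonneg_left (div_le_div_of_nonneg_right h1 hT.le) (by positivity)
    have hpos : 0 ≤ θ / (2 * R) := by positivity
    have e : (θ / (2 * R) + 1 / (2 * θ)) * Tc G + -(θ / (2 * R)) * (Tc G - 1 - Q / Tc G)
        = Tc G / (2 * θ) + θ / (2 * R) * (Q / Tc G) + θ / (2 * R) := by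
      field_simp
      ring
    rw [e]
    linarith
  · have hs : ¬ (y < G.card ∧ (tri G).Nonempty) := fun h => hne h.2
    rw [lev_stop hs, Sq, high_eq_zero hne]
    have h0 : Tc G = 0 := by
      unfold Tc
      rw [not_nonempty_iff_eq_empty.mp hne]
      simp
    rw [h0]
    simp

/-- The telescoping over `m` levels. -/
lemma level_sum {R : ℕ} (hR : 1 ≤ R) {θ : ℝ} (hθ : 0 < θ) (X m k : ℕ)
    (G : Finset (Sym2 (Fin n))) (hG : G.card = X + 3 * m + 3 * k) :
    ∀ j, j ≤ m → (j : ℝ) * lev X (Sq R) G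
      ≤ θ / (2 * R) * (lev (X + 3 * j) Tc G - lev X Tc G)
        + (j : ℝ) / (2 * θ) * lev (X + 3 * m) Tc G := by
  intro j
  induction j with
  | zero =>
    intro _
    simp
  | succ j ih =>
    intro hj
    have h0 := ih (by omega)
    have hv : lev X (Sq R) G ≤ lev (X + 3 * (j + 1)) (Sq R) G :=
      lev_le_lev (by omega) (fun H τ _ => by
        unfold Sq
        exact Real.sqrt_le_sqrt (by exact_mod_cast high_anti R H τ)) G
    have hu : lev (X + 3 * (j + 1)) Tc G ≤ lev (X + 3 * m) Tc G :=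
      lev_le_lev (by omega) (fun H τ hτ => Tc_anti H τ hτ) G
    have e3 : X + 3 * (j + 1) = X + 3 * j + 3 := by ring
    have hstep : lev (X + 3 * (j + 1)) (Sq R) G
        ≤ (θ / (2 * R) + 1 / (2 * θ)) * lev (X + 3 * (j + 1)) Tc G
          + (-(θ / (2 * R))) * lev (X + 3 * j) Tc G := by
      have h1 := lev_mono_good (X := X + 3 * (j + 1)) (g := Sq R)
        (h := fun H => (θ / (2 * R) + 1 / (2 * θ)) * Tc H
          + (-(θ / (2 * R))) * lev (X + 3 * j) Tc H)
        (fun H hH => one_level hR hθ (X + 3 * j) H (by rw [e3] at hH; exact hH))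
        (m - (j + 1) + k) G (by
          rw [hG]
          have : m = (j + 1) + (m - (j + 1)) := by omega
          nlinarith)
      refine h1.trans (le_of_eq ?_)
      rw [lev_add _ _ _ _ G rfl, lev_smul _ _ _ _ G rfl, lev_smul _ _ _ _ G rfl,
        lev_tower (by omega) _ _ G rfl]
    have hpos : 0 ≤ 1 / (2 * θ) := by positivity
    have hmul := mul_le_mul_of_nonneg_left hu hpos
    push_cast
    have e : ((j : ℝ) + 1) / (2 * θ) * lev (X + 3 * m) Tc G
        = (j : ℝ) / (2 * θ) * lev (X + 3 * m) Tc G + 1 / (2 * θ) * lev (X + 3 * m) Tc G := by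
      ring
    rw [e]
    nlinarith

/-! ## The complete graph -/

/-- The complete graph on `Fin n`. -/
def top (n : ℕ) : Finset (Sym2 (Fin n)) := edges (univ : Finset (Fin n))

lemma card_top (n : ℕ) : (top n).card = n.choose 2 := by
  rw [top, card_edges, card_univ, Fintype.card_fin]

lemma Tc_top (n : ℕ) : Tc (top n) = (n.choose 3 : ℝ) := by
  unfold Tc top
  rw [tri_top, card_powersetCard, card_univ, Fintype.card_fin]

/-- The bound for the number of triangles at a level of the complete graph. -/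
lemma top_bound {N x₀ T₀ Z : ℝ} (hN : 10000 ≤ N) (hx : x₀ = N * (N - 1) / 2)
    (hT : T₀ * 3 = x₀ * (N - 2)) (hZ : 9 ≤ Z) (hZx : Z ≤ x₀) :
    aa Z x₀ * T₀ + bb Z x₀ ≤ 7 / 5 * Z ^ 3 / N ^ 3 + Z / 3 := by
  have hx6 : 49 / 100 * N ^ 2 ≤ x₀ - 6 := by
    rw [hx]
    nlinarith
  have hNpos : 0 < N := by linarith
  have hN2 : 0 < N ^ 2 := by positivity
  have h3 : 0 < x₀ - 3 := by nlinarith
  have h6 : 0 < x₀ - 6 := by nlinarith
  have h0 : 0 < x₀ := by linarith
  have hZ0 : 0 ≤ Z := by linarith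
  have hZ6 : 0 ≤ Z - 6 := by linarith
  have hc : Z * (Z - 3) * (Z - 6) ≤ Z ^ 3 := by nlinarith [mul_nonneg hZ0 hZ6]
  have hc0 : 0 ≤ Z * (Z - 3) * (Z - 6) := by
    have : 0 ≤ Z - 3 := by linarith
    have : 0 ≤ Z - 6 := by linarith
    have : 0 ≤ Z := by linarith
    positivity
  have hb : bb Z x₀ ≤ Z / 3 := by
    unfold bb
    have : 0 ≤ Z * (Z - 3) * (Z - 6) / (3 * (x₀ - 3) * (x₀ - 6)) := by positivity
    linarith
  have ha : aa Z x₀ * T₀ ≤ 7 / 5 * Z ^ 3 / N ^ 3 := by
    unfold aa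
    have hT' : T₀ = x₀ * (N - 2) / 3 := by linarith
    have e : Z * (Z - 3) * (Z - 6) / (x₀ * (x₀ - 3) * (x₀ - 6)) * T₀
        = Z * (Z - 3) * (Z - 6) * (N - 2) / (3 * ((x₀ - 3) * (x₀ - 6))) := by
      rw [hT']
      field_simp
    rw [e, div_le_div_iff₀ (by positivity) (by positivity)]
    have hprod : (49 / 100 * N ^ 2) * (49 / 100 * N ^ 2) ≤ (x₀ - 3) * (x₀ - 6) := by
      apply mul_le_mul (by linarith) hx6 (by positivity) h3.le
    have hN3 : 0 < N ^ 3 := by positivity
    have h1 : N ^ 3 * (N - 2) ≤ 7 / 5 * (3 * ((x₀ - 3) * (x₀ - 6))) := by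
      have : N ^ 3 * (N - 2) ≤ N ^ 4 := by nlinarith
      nlinarith
    calc Z * (Z - 3) * (Z - 6) * (N - 2) * N ^ 3
        = Z * (Z - 3) * (Z - 6) * (N ^ 3 * (N - 2)) := by ring
      _ ≤ Z * (Z - 3) * (Z - 6) * (7 / 5 * (3 * ((x₀ - 3) * (x₀ - 6)))) :=
          mul_le_mul_of_nonneg_left h1 hc0
      _ ≤ Z ^ 3 * (7 / 5 * (3 * ((x₀ - 3) * (x₀ - 6)))) :=
          mul_le_mul_of_nonneg_right hc (by positivity)
      _ = _ := by ring
  linarith

lemma cube_bound {N Y Z C D : ℝ} (hN3 : 0 < N ^ 3) (hY : 0 < Y) (hYsq : Y ^ 2 = N ^ 3)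
    (hZ0 : 0 ≤ Z) (hZ : Z ≤ C * Y) (hCD : C ^ 3 ≤ D) :
    7 / 5 * Z ^ 3 / N ^ 3 ≤ 7 / 5 * (D * Y) := by
  rw [div_le_iff₀ hN3, ← hYsq]
  have hc : Z ^ 3 ≤ (C * Y) ^ 3 := pow_le_pow_left₀ hZ0 hZ 3
  have h3 : (C * Y) ^ 3 ≤ D * Y * Y ^ 2 := by
    have e1 : (C * Y) ^ 3 = C ^ 3 * Y ^ 3 := by ring
    have e2 : D * Y * Y ^ 2 = D * Y ^ 3 := by ring
    rw [e1, e2]
    exact mul_le_mul_of_nonneg_right hCD (by positivity)
  have e3 : 7 / 5 * (D * Y) * Y ^ 2 = 7 / 5 * (D * Y * Y ^ 2) := by ring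
  rw [e3]
  linarith

/-- The root term at a level. -/
lemma root_bound {G : Finset (Sym2 (Fin n))} {X m k : ℕ} (hG : G.card = X + 3 * m + 3 * k)
    {r : ℝ} (hr0 : 1000 ≤ r) (hm : 0 < (m : ℝ)) (hmr : r * r ≤ 4 * (m : ℝ))
    (hu0 : 0 ≤ lev X Tc G) (hum : lev (X + 3 * m) Tc G ≤ 12 * (r * r)) :
    lev X (Sq 5760000) G ≤ r / 100 := by
  have hrpos : 0 < r := by linarith
  have hθ : 0 < 1200 * r := by positivity
  have h6 := level_sum (R := 5760000) (by norm_num) hθ X m k G hG m le_rfl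
  push_cast at h6
  set U := lev (X + 3 * m) Tc G with hU
  set u₀ := lev X Tc G with hu₀
  have h7 : (m : ℝ) * lev X (Sq 5760000) G ≤ (m : ℝ) * (r / 100) := by
    refine h6.trans ?_
    have e1 : 1200 * r / (2 * 5760000) * (U - u₀) ≤ r / 9600 * (12 * (r * r)) := by
      have h : U - u₀ ≤ 12 * (r * r) := by linarith
      have e : 1200 * r / (2 * 5760000) = r / 9600 := by ring
      rw [e]
      exact mul_le_mul_of_nonneg_left h (by positivity)
    have e2 : (m : ℝ) / (2 * (1200 * r)) * U ≤ (m : ℝ) / (2 * (1200 * r)) * (12 * (r * r)) :=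
      mul_le_mul_of_nonneg_left hum (by positivity)
    have e3 : (m : ℝ) / (2 * (1200 * r)) * (12 * (r * r)) = (m : ℝ) * (r / 200) := by
      field_simp
      ring
    have e4 : r / 9600 * (12 * (r * r)) ≤ (m : ℝ) * (r / 200) := by
      have e5 : r / 9600 * (12 * (r * r)) = r / 800 * (r * r) := by ring
      rw [e5]
      have h8 := mul_le_mul_of_nonneg_left hmr (show 0 ≤ r / 800 by positivity)
      have e6 : r / 800 * (4 * (m : ℝ)) = (m : ℝ) * (r / 200) := by ring
      linarith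
    rw [e3] at e2
    linarith
  exact le_of_mul_le_mul_left h7 hm

/-- The averaged inequality at a level. -/
lemma level_ineq {G : Finset (Sym2 (Fin n))} {X : ℕ} (k : ℕ) (hG : G.card = X + 3 * k) :
    (2048 / 8085 : ℝ) * (X : ℝ) + (-(128 / 8085 * 3)) * lev X Tc G
      ≤ (1 + 9 / 7 * ((5760000 - 1 : ℕ) : ℝ)) * expF G
        + (9 / 7 * lev X (fun G => (isoCount G : ℝ)) G
          + (9 / 7 * Real.sqrt (X : ℝ)) * lev X (Sq 5760000) G) := by
  have hlev := lev_mono_good (X := X)
    (g := fun G => (2048 / 8085 : ℝ) * (X : ℝ) + (-(128 / 8085 * 3)) * Tc G)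
    (h := fun G => (1 + 9 / 7 * ((5760000 - 1 : ℕ) : ℝ)) * expF G
      + (9 / 7 * (isoCount G : ℝ) + (9 / 7 * Real.sqrt (X : ℝ)) * Sq 5760000 G))
    (fun H hH => by
      have := good_bound X 5760000 H hH
      show (2048 / 8085 : ℝ) * (X : ℝ) + (-(128 / 8085 * 3)) * Tc H
        ≤ (1 + 9 / 7 * ((5760000 - 1 : ℕ) : ℝ)) * expF H
          + (9 / 7 * (isoCount H : ℝ) + (9 / 7 * Real.sqrt (X : ℝ)) * Sq 5760000 H)
      linarith)
    k G hG
  rw [lev_add _ _ _ _ _ rfl, lev_add _ _ _ _ _ rfl, lev_add _ _ _ _ _ rfl, lev_smul _ _ _ _ _ rfl,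
    lev_smul _ _ _ _ _ rfl, lev_smul _ _ _ _ _ rfl, lev_smul _ _ _ _ _ rfl, lev_smul _ _ _ _ _ rfl,
    lev_const _ _ _ _ rfl, lev_expF _ _ _ rfl] at hlev
  exact hlev

/-- Arithmetic of the final step. -/
lemma final_arith {Y x u v s r F I : ℝ} (hY : 0 < Y) (hr2 : r * r = Y) (hYx : Y ≤ x)
    (hu : u ≤ 87 / 50 * Y) (hsq : s * v ≤ 1001 / 1000 * r * (r / 100)) (hF : 0 ≤ F)
    (h : (2048 / 8085 : ℝ) * x + (-(128 / 8085 * 3)) * u
      ≤ (1 + 9 / 7 * ((5760000 - 1 : ℕ) : ℝ)) * F + (9 / 7 * I + (9 / 7 * s) * v)) :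
    (3 / 20 : ℝ) * Y ≤ 7500000 * F + 9 / 7 * I := by
  have e : 1001 / 1000 * r * (r / 100) = 1001 / 100000 * Y := by
    rw [← hr2]
    ring
  rw [e] at hsq
  have e2 : (9 / 7 * s) * v = 9 / 7 * (s * v) := by ring
  rw [e2] at h
  have hc : (1 + 9 / 7 * ((5760000 - 1 : ℕ) : ℝ)) ≤ 7500000 := by norm_num
  have hc' := mul_le_mul_of_nonneg_right hc hF
  linarith

/-- **Main theorem, explicit form.** -/
theorem main_level (n X q : ℕ) (hn : 10000 ≤ n)
    (h1 : (n : ℝ) * Real.sqrt n ≤ X) (h2 : (X : ℝ) ≤ (n : ℝ) * Real.sqrt n + 3)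
    (hq : n.choose 2 = X + 3 * q) :
    (3 / 20 : ℝ) * ((n : ℝ) * Real.sqrt n)
      ≤ 7500000 * expF (top n) + 9 / 7 * lev X (fun G => (isoCount G : ℝ)) (top n) := by
  set N : ℝ := (n : ℝ) with hNdef
  have hN : (10000 : ℝ) ≤ N := by
    rw [hNdef]
    exact_mod_cast hn
  set w := Real.sqrt N with hw
  have hw2 : w * w = N := Real.mul_self_sqrt (by linarith)
  have hw100 : 100 ≤ w := by
    rw [hw]
    apply Real.le_sqrt_of_sq_le
    linarith
  set Y := N * w with hY
  have hY6 : 1000000 ≤ Y := by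
    rw [hY]
    nlinarith
  have hYsq : Y ^ 2 = N ^ 3 := by
    rw [hY]
    have : (N * w) ^ 2 = N ^ 2 * (w * w) := by ring
    rw [this, hw2]
    ring
  set r := Real.sqrt Y with hr
  have hr2 : r * r = Y := Real.mul_self_sqrt (by linarith)
  have hr0 : 1000 ≤ r := by
    rw [hr]
    apply Real.le_sqrt_of_sq_le
    linarith
  -- level data
  have hX9 : 9 ≤ X := by
    have : (9 : ℝ) ≤ X := by linarith
    exact_mod_cast this
  have hXu : (X : ℝ) ≤ 1001 / 1000 * Y := by linarith
  set m := X / 3 with hm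
  have hm1 : 3 * m ≤ X := Nat.mul_div_le X 3
  have hm2 : X < 3 * (m + 1) := by omega
  have hm1r : 3 * (m : ℝ) ≤ X := by exact_mod_cast hm1
  have hm2r : (X : ℝ) < 3 * ((m : ℝ) + 1) := by exact_mod_cast hm2
  have hmY : Y / 4 ≤ (m : ℝ) := by linarith
  have hmpos : 0 < (m : ℝ) := by linarith
  have hx₀ : ((n.choose 2 : ℕ) : ℝ) = N * (N - 1) / 2 := Nat.cast_choose_two ℝ n
  have hT₀ : ((n.choose 3 : ℕ) : ℝ) * 3 = ((n.choose 2 : ℕ) : ℝ) * (N - 2) := by
    have h := Nat.choose_succ_right_eq n 2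
    have hc : ((n - 2 : ℕ) : ℝ) = N - 2 := by
      rw [Nat.cast_sub (by omega)]
      norm_num
      rfl
    have h' : ((n.choose 3 * 3 : ℕ) : ℝ) = ((n.choose 2 * (n - 2) : ℕ) : ℝ) := by
      exact_mod_cast h
    push_cast at h'
    rw [hc] at h'
    exact h'
  have hwN : 100 * w ≤ N := by nlinarith
  have hlarge : 2 * (X : ℝ) ≤ ((n.choose 2 : ℕ) : ℝ) := by
    rw [hx₀]
    have : Y ≤ N * (N / 100) := by
      rw [hY]
      exact mul_le_mul_of_nonneg_left (by linarith) (by linarith)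
    nlinarith
  have hlargeN : 2 * X ≤ n.choose 2 := by exact_mod_cast hlarge
  have hmq : m ≤ q := by omega
  obtain ⟨k, rfl⟩ : ∃ k, q = m + k := ⟨q - m, by omega⟩
  have hG : (top n).card = X + 3 * m + 3 * k := by
    rw [card_top, hq]
    ring
  have hG' : (top n).card = X + 3 * (m + k) := by
    rw [card_top, hq]
  have hGr : ((top n).card : ℝ) = N * (N - 1) / 2 := by
    rw [card_top, hx₀]
  have hNpos : 0 < N := by linarith
  have hN3 : 0 < N ^ 3 := by positivity
  have hYpos : 0 < Y := by linarith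
  -- the triangle bounds
  have hu0 : lev X Tc (top n) ≤ 87 / 50 * Y := by
    have h3 := lev_T_le hX9 (m + k) (top n) hG'
    rw [Tc_top, card_top] at h3
    have hZ : (9 : ℝ) ≤ X := by exact_mod_cast hX9
    have h4 := top_bound hN hx₀ hT₀ hZ (by linarith [hlarge, (Nat.cast_nonneg X : (0 : ℝ) ≤ X)])
    have h5 := cube_bound (Z := (X : ℝ)) (C := 1001 / 1000) (D := 1004 / 1000) hN3 hYpos hYsq
      (Nat.cast_nonneg _) hXu (by norm_num)
    linarith
  have hX₂ : ((X + 3 * m : ℕ) : ℝ) ≤ 2002 / 1000 * Y := by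
    push_cast
    linarith
  have hum : lev (X + 3 * m) Tc (top n) ≤ 12 * Y := by
    have h3 := lev_T_le (X := X + 3 * m) (by omega) k (top n) hG
    rw [Tc_top, card_top] at h3
    have hZ : (9 : ℝ) ≤ ((X + 3 * m : ℕ) : ℝ) := by
      have : 9 ≤ X + 3 * m := by omega
      exact_mod_cast this
    have hZx : ((X + 3 * m : ℕ) : ℝ) ≤ ((n.choose 2 : ℕ) : ℝ) := by
      have : X + 3 * m ≤ n.choose 2 := by omega
      exact_mod_cast this
    have h4 := top_bound hN hx₀ hT₀ hZ hZx
    have h5 := cube_bound (Z := ((X + 3 * m : ℕ) : ℝ)) (C := 2002 / 1000) (D := 803 / 100)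
      hN3 hYpos hYsq (Nat.cast_nonneg _) hX₂ (by norm_num)
    linarith
  have hu0nn : 0 ≤ lev X Tc (top n) := by
    have h5 := lev_mono (X := X) (g := fun _ => (0 : ℝ)) (h := Tc)
      (fun H => by unfold Tc; positivity) _ (top n) rfl
    rwa [lev_const _ _ _ _ rfl] at h5
  -- the root term
  have hv : lev X (Sq 5760000) (top n) ≤ r / 100 :=
    root_bound hG hr0 hmpos (by rw [hr2]; linarith) hu0nn (by rw [hr2]; exact hum)
  have hsqrtX : Real.sqrt (X : ℝ) ≤ 1001 / 1000 * r := by
    apply Real.sqrt_le_iff.mpr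
    refine ⟨by positivity, ?_⟩
    have : (1001 / 1000 * r) ^ 2 = 1002001 / 1000000 * (r * r) := by ring
    rw [this, hr2]
    linarith
  have hlev := level_ineq (m + k) hG'
  have hF := expF_nonneg _ (top n) rfl
  have hsq : Real.sqrt (X : ℝ) * lev X (Sq 5760000) (top n) ≤ 1001 / 1000 * r * (r / 100) :=
    mul_le_mul hsqrtX hv (by
      have h5 := lev_mono (X := X) (g := fun _ => (0 : ℝ)) (h := Sq 5760000)
        (fun H => Real.sqrt_nonneg _) _ (top n) rfl
      rwa [lev_const _ _ _ _ rfl] at h5) (by positivity)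
  exact final_arith hYpos hr2 h1 hu0 hsq hF hlev

/-- Existence of a level. -/
lemma exists_level (n : ℕ) (hn : 10000 ≤ n) :
    ∃ X q : ℕ, (n : ℝ) * Real.sqrt n ≤ X ∧ (X : ℝ) ≤ (n : ℝ) * Real.sqrt n + 3 ∧
      n.choose 2 = X + 3 * q := by
  have hN : (10000 : ℝ) ≤ (n : ℝ) := by exact_mod_cast hn
  have hw2 : Real.sqrt n * Real.sqrt n = (n : ℝ) := Real.mul_self_sqrt (by linarith)
  have hw100 : 100 ≤ Real.sqrt n := by
    apply Real.le_sqrt_of_sq_le
    linarith
  have hw0 : 0 ≤ (n : ℝ) * Real.sqrt n := by positivity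
  have hc1 := Nat.le_ceil ((n : ℝ) * Real.sqrt n)
  have hc2 := Nat.ceil_lt_add_one hw0
  set c := ⌈(n : ℝ) * Real.sqrt n⌉₊ with hc
  set d := (n.choose 2 + 2 * c) % 3 with hd
  have hd3 : d < 3 := Nat.mod_lt _ (by norm_num)
  have hdr : (d : ℝ) ≤ 2 := by
    have : d ≤ 2 := by omega
    exact_mod_cast this
  have hx₀ : ((n.choose 2 : ℕ) : ℝ) = (n : ℝ) * ((n : ℝ) - 1) / 2 := Nat.cast_choose_two ℝ n
  have hwN : 100 * Real.sqrt n ≤ (n : ℝ) := by nlinarith
  have hbig : ((c + d : ℕ) : ℝ) ≤ ((n.choose 2 : ℕ) : ℝ) := by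
    push_cast
    rw [hx₀]
    have h5 : (n : ℝ) * Real.sqrt n ≤ (n : ℝ) * ((n : ℝ) / 100) :=
      mul_le_mul_of_nonneg_left (by linarith) (by linarith)
    nlinarith
  have hbigN : c + d ≤ n.choose 2 := by exact_mod_cast hbig
  refine ⟨c + d, (n.choose 2 - (c + d)) / 3, ?_, ?_, ?_⟩
  · push_cast
    have : (0 : ℝ) ≤ d := Nat.cast_nonneg _
    linarith
  · push_cast
    linarith
  · omega

/-- **Main theorem.** -/
theorem result :
    (∀ (n R : ℕ) (G : Finset (Sym2 (Fin n))),
      expS G + ((R - 1 : ℕ) : ℝ) * (dead G : ℝ)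
        ≤ ((R - 1 : ℕ) : ℝ) * expF G + (isoCount G : ℝ) + 3 * (high R G : ℝ)) ∧
    (∀ n X q : ℕ, 10000 ≤ n → (n : ℝ) * Real.sqrt n ≤ X → (X : ℝ) ≤ (n : ℝ) * Real.sqrt n + 3 →
      n.choose 2 = X + 3 * q →
      (3 / 20 : ℝ) * ((n : ℝ) * Real.sqrt n)
        ≤ 7500000 * expF (top n) + 9 / 7 * lev X (fun G => (isoCount G : ℝ)) (top n)) ∧
    (∀ n : ℕ, 10000 ≤ n → ∃ X q : ℕ, (n : ℝ) * Real.sqrt n ≤ X ∧
      (X : ℝ) ≤ (n : ℝ) * Real.sqrt n + 3 ∧ n.choose 2 = X + 3 * q) := by
  refine ⟨?_, ?_, exists_level⟩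
  · intro n R G
    exact expS_le R _ G rfl
  · intro n X q hn h1 h2 hq
    exact main_level n X q hn h1 h2 hq

end Vale.Agent.Results.P046.AIsolatedAtLevel
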