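import Mathlib

open Finset

namespace Vale.Agent.Results.P046.FPlusIsolated

/-! ## The random triangle removal process, by first-step recursion -/

/-- The edges of a vertex set `t`: all its unordered pairs of distinct vertices. For a
3-set these are the three edges of a triangle. -/
def edges {n : ℕ} (t : Finset (Fin n)) : Finset (Sym2 (Fin n)) :=
  t.sym2.filter (fun e => ¬ e.IsDiag)

/-- The triangles of the graph `G` (a graph on `Fin n` given by its edge set): the 3-sets of
vertices all of whose edges are in `G`. -/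
def tri {n : ℕ} (G : Finset (Sym2 (Fin n))) : Finset (Finset (Fin n)) :=
  (powersetCard 3 univ).filter (fun t => edges t ⊆ G)

/-- The number of triangles of `G` that contain the edge `e`. -/
def load {n : ℕ} (G : Finset (Sym2 (Fin n))) (e : Sym2 (Fin n)) : ℕ :=
  ((tri G).filter (fun t => e ∈ edges t)).card

lemma edges_eq_image {n : ℕ} (t : Finset (Fin n)) :
    edges t = t.offDiag.image Sym2.mk.uncurry := by
  ext e
  induction e with
  | _ a b =>
    simp only [edges, mem_filter, Finset.mk_mem_sym2_iff, Sym2.mk_isDiag_iff, mem_image,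
      mem_offDiag, Prod.exists, Function.uncurry_apply_pair, Sym2.eq_iff]
    constructor
    · rintro ⟨⟨ha, hb⟩, hab⟩
      exact ⟨a, b, ⟨ha, hb, hab⟩, Or.inl ⟨rfl, rfl⟩⟩
    · rintro ⟨x, y, ⟨hx, hy, hxy⟩, (⟨rfl, rfl⟩ | ⟨rfl, rfl⟩)⟩
      · exact ⟨⟨hx, hy⟩, hxy⟩
      · exact ⟨⟨hy, hx⟩, fun h => hxy h.symm⟩

lemma card_edges {n : ℕ} (t : Finset (Fin n)) : (edges t).card = t.card.choose 2 := by
  rw [edges_eq_image, Sym2.card_image_offDiag]

lemma card_edges_of_mem_tri {n : ℕ} {G : Finset (Sym2 (Fin n))} {t : Finset (Fin n)}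
    (ht : t ∈ tri G) : (edges t).card = 3 := by
  rw [card_edges]
  have : t.card = 3 := by
    have := (mem_filter.mp ht).1
    exact (mem_powersetCard.mp this).2
  rw [this]; rfl

lemma card_sdiff_edges_lt {n : ℕ} {G : Finset (Sym2 (Fin n))} {t : Finset (Fin n)}
    (ht : t ∈ tri G) : (G \ edges t).card < G.card := by
  have h3 := card_edges_of_mem_tri ht
  have hsub : edges t ⊆ G := (mem_filter.mp ht).2
  rw [card_sdiff_of_subset hsub]
  have := card_le_card hsub
  omega

/-- The expected final number of edges of the triangle removal process started from `G`, by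
first-step analysis: if `G` has no triangle the process has stopped with `G.card` edges;
otherwise a uniformly random triangle `t` of `G` is chosen and its edges are deleted. -/
noncomputable def expF {n : ℕ} (G : Finset (Sym2 (Fin n))) : ℝ :=
  if (tri G).Nonempty then
    (∑ t ∈ (tri G).attach, expF (G \ edges t.1)) / ((tri G).card : ℝ)
  else (G.card : ℝ)
termination_by G.card
decreasing_by exact card_sdiff_edges_lt t.2

/-- The expected number of chosen triangles that are isolated when chosen, by first-step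
analysis. A triangle `t` of `G` is isolated in `G` if each of its edges lies in exactly one
triangle of `G`. -/
noncomputable def expS {n : ℕ} (G : Finset (Sym2 (Fin n))) : ℝ :=
  if (tri G).Nonempty then
    (∑ t ∈ (tri G).attach,
        (expS (G \ edges t.1) + if ∀ e ∈ edges t.1, load G e = 1 then 1 else 0)) /
      ((tri G).card : ℝ)
  else 0
termination_by G.card
decreasing_by exact card_sdiff_edges_lt t.2

/-- The weight `ψ`: `ψ 0 = 1`, `ψ 1 = 3/7`, `ψ (y+2) = ψ (y+1) * (2y+2) / (2y+3)`. -/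
noncomputable def psi : ℕ → ℝ
  | 0 => 1
  | 1 => 3 / 7
  | (y + 2) => psi (y + 1) * ((2 * (y : ℝ) + 2) / (2 * (y : ℝ) + 3))

/-! ## Elementary properties of the weight -/

lemma psi_zero : psi 0 = 1 := by rw [psi]
lemma psi_one : psi 1 = 3 / 7 := by rw [psi]
lemma psi_add_two (m : ℕ) :
    psi (m + 2) = psi (m + 1) * ((2 * (m : ℝ) + 2) / (2 * (m : ℝ) + 3)) := by rw [psi]
lemma psi_two : psi 2 = 2 / 7 := by
  have := psi_add_two 0
  simp only [zero_add, psi_one] at this
  rw [this]; norm_num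

lemma psi_pos : ∀ y, 0 < psi y
  | 0 => by rw [psi_zero]; norm_num
  | 1 => by rw [psi_one]; norm_num
  | (m + 2) => by
      have := psi_pos (m + 1)
      rw [psi_add_two]
      positivity

lemma psi_succ_le : ∀ y, psi (y + 1) ≤ psi y
  | 0 => by rw [psi_zero, psi_one]; norm_num
  | (m + 1) => by
      rw [psi_add_two]
      have h1 := psi_pos (m + 1)
      have h2 : (2 * (m : ℝ) + 2) / (2 * (m : ℝ) + 3) ≤ 1 := by
        rw [div_le_one (by positivity)]; linarith
      nlinarith

lemma psi_anti : Antitone psi := antitone_nat_of_succ_le psi_succ_le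

/-- The decrement `Δ y = ψ (y-1) - ψ y`. -/
noncomputable def Del (y : ℕ) : ℝ := psi (y - 1) - psi y

lemma Del_succ (m : ℕ) : Del (m + 1) = psi m - psi (m + 1) := by
  simp [Del]

lemma Del_nonneg (y : ℕ) : 0 ≤ Del y := by
  cases y with
  | zero => simp [Del]
  | succ m =>
    rw [Del_succ]
    linarith [psi_succ_le m]

lemma Del_one : Del 1 = 4 / 7 := by
  rw [Del_succ, psi_zero, psi_one]; norm_num

lemma Del_add_two (m : ℕ) : Del (m + 2) = psi (m + 2) / (2 * (m : ℝ) + 2) := by
  have h := Del_succ (m + 1)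
  rw [show m + 1 + 1 = m + 2 from rfl] at h
  rw [h, psi_add_two]
  have h1 : (2 * (m : ℝ) + 2) ≠ 0 := by positivity
  have h2 : (2 * (m : ℝ) + 3) ≠ 0 := by positivity
  field_simp
  ring

lemma Del_step (y : ℕ) : Del (y + 2) ≤ Del (y + 1) := by
  cases y with
  | zero =>
    have : Del 2 = 1 / 7 := by
      have h := Del_succ 1
      rw [show 1 + 1 = 2 from rfl] at h
      rw [h, psi_one, psi_two]; norm_num
    rw [zero_add, this, zero_add, Del_one]; norm_num
  | succ m =>
    rw [show m + 1 + 2 = (m + 1) + 2 from rfl, Del_add_two (m + 1),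
      show m + 1 + 1 = m + 2 from rfl, Del_add_two m]
    push_cast
    have h1 := psi_pos (m + 2)
    have h2 := psi_succ_le (m + 2)
    rw [show m + 2 + 1 = m + 1 + 2 from rfl] at h2
    have h3 : (0 : ℝ) ≤ m := Nat.cast_nonneg m
    apply div_le_div₀ h1.le h2 (by positivity) (by linarith)

lemma Del_anti {a b : ℕ} (ha : 1 ≤ a) (hab : a ≤ b) : Del b ≤ Del a := by
  induction b, hab using Nat.le_induction with
  | base => exact le_rfl
  | succ b hb ih =>
    obtain ⟨c, rfl⟩ : ∃ c, b = c + 1 := ⟨b - 1, by omega⟩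
    exact (Del_step c).trans ih

/-- Discrete convexity of `ψ`. -/
lemma psi_convex (k : ℕ) : ∀ a : ℕ, (k : ℝ) * Del (a + k) ≤ psi a - psi (a + k) := by
  induction k with
  | zero => intro a; simp
  | succ k ih =>
    intro a
    have h1 := ih (a + 1)
    rw [show a + 1 + k = a + (k + 1) by omega] at h1
    have h2 : Del (a + (k + 1)) ≤ Del (a + 1) := Del_anti (by omega) (by omega)
    have h3 := Del_succ a
    push_cast
    nlinarith

/-! ## The numeric lemma -/

/-- The ratio `ψ(m+2)/(m+1)`. -/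
noncomputable def wt (m : ℕ) : ℝ := psi (m + 2) / ((m : ℝ) + 1)

lemma wt_anti {m m' : ℕ} (h : m ≤ m') : wt m' ≤ wt m := by
  unfold wt
  have h1 : psi (m' + 2) ≤ psi (m + 2) := psi_anti (by omega)
  have h2 : (m : ℝ) ≤ m' := by exact_mod_cast h
  have h3 := psi_pos (m' + 2)
  have h4 : (0 : ℝ) ≤ m := Nat.cast_nonneg m
  exact div_le_div₀ (psi_pos _).le h1 (by positivity) (by linarith)

lemma cheb (m m' : ℕ) : 0 ≤ (wt m - wt m') * ((m' : ℝ) - m) := by
  rcases le_total m m' with h | h
  · have h1 := wt_anti h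
    have h2 : (m : ℝ) ≤ m' := by exact_mod_cast h
    exact mul_nonneg (by linarith) (by linarith)
  · have h1 := wt_anti h
    have h2 : (m' : ℝ) ≤ m := by exact_mod_cast h
    exact mul_nonneg_of_nonpos_of_nonpos (by linarith) (by linarith)

lemma Del_eq_wt (m : ℕ) : Del (m + 2) = wt m / 2 := by
  rw [Del_add_two, wt]
  have h1 : ((m : ℝ) + 1) ≠ 0 := by positivity
  have h2 : (2 * (m : ℝ) + 2) ≠ 0 := by positivity
  field_simp

lemma psi_eq_wt (m : ℕ) : psi (m + 2) = wt m * ((m : ℝ) + 1) := by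
  rw [wt]
  have h1 : ((m : ℝ) + 1) ≠ 0 := by positivity
  field_simp

/-- The case in which one of the three loads is `1` and not all are. -/
lemma numeric_zero (b c : ℕ) (h : b ≠ 0 ∨ c ≠ 0) :
    0 ≤ Del 1 * ((b : ℝ) + c) + Del (b + 1) * (c : ℝ) + Del (c + 1) * (b : ℝ)
      - psi 1 - psi (b + 1) - psi (c + 1) := by
  rw [Del_one, psi_one]
  have hb0 := Del_nonneg (b + 1)
  have hc0 := Del_nonneg (c + 1)
  have hbr : (0 : ℝ) ≤ b := Nat.cast_nonneg b
  have hcr : (0 : ℝ) ≤ c := Nat.cast_nonneg c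
  by_cases hb : b = 0
  · subst hb
    have hc : c ≠ 0 := by tauto
    have hc1 : (1 : ℝ) ≤ c := by exact_mod_cast Nat.one_le_iff_ne_zero.mpr hc
    have hp : psi (c + 1) ≤ 2 / 7 := by
      rw [← psi_two]; exact psi_anti (by omega)
    have hD : Del (0 + 1) = 4 / 7 := by simpa using Del_one
    have hp0 : psi (0 + 1) = 3 / 7 := by simpa using psi_one
    rw [hD, hp0]
    simp only [Nat.cast_zero, zero_add, mul_zero, add_zero]
    nlinarith
  · have hb1 : (1 : ℝ) ≤ b := by exact_mod_cast Nat.one_le_iff_ne_zero.mpr hb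
    have hpb : psi (b + 1) ≤ 2 / 7 := by
      rw [← psi_two]; exact psi_anti (by omega)
    by_cases hc : c = 0
    · subst hc
      have hD : Del (0 + 1) = 4 / 7 := by simpa using Del_one
      have hp0 : psi (0 + 1) = 3 / 7 := by simpa using psi_one
      rw [hD, hp0]
      simp only [Nat.cast_zero, mul_zero, add_zero]
      nlinarith
    · have hc1 : (1 : ℝ) ≤ c := by exact_mod_cast Nat.one_le_iff_ne_zero.mpr hc
      have hpc : psi (c + 1) ≤ 2 / 7 := by
        rw [← psi_two]; exact psi_anti (by omega)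
      have h1 : 0 ≤ Del (b + 1) * (c : ℝ) := mul_nonneg hb0 hcr
      have h2 : 0 ≤ Del (c + 1) * (b : ℝ) := mul_nonneg hc0 hbr
      nlinarith

/-- The numeric lemma: `L(y₁,y₂,y₃) ≥ 0` unless all three loads equal `1`. Here `yᵢ = zᵢ + 1`. -/
lemma numeric (z1 z2 z3 : ℕ) (h : ¬ (z1 = 0 ∧ z2 = 0 ∧ z3 = 0)) :
    0 ≤ Del (z1 + 1) * ((z2 : ℝ) + z3) + Del (z2 + 1) * ((z1 : ℝ) + z3)
        + Del (z3 + 1) * ((z1 : ℝ) + z2)
      - psi (z1 + 1) - psi (z2 + 1) - psi (z3 + 1) := by
  by_cases h1 : z1 = 0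
  · subst h1
    have := numeric_zero z2 z3 (by tauto)
    simp only [zero_add, Nat.cast_zero]
    linarith
  by_cases h2 : z2 = 0
  · subst h2
    have := numeric_zero z1 z3 (by tauto)
    simp only [zero_add, Nat.cast_zero, add_zero]
    linarith
  by_cases h3 : z3 = 0
  · subst h3
    have := numeric_zero z1 z2 (by tauto)
    simp only [zero_add, Nat.cast_zero, add_zero]
    linarith
  obtain ⟨m1, rfl⟩ : ∃ m, z1 = m + 1 := ⟨z1 - 1, by omega⟩
  obtain ⟨m2, rfl⟩ : ∃ m, z2 = m + 1 := ⟨z2 - 1, by omega⟩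
  obtain ⟨m3, rfl⟩ : ∃ m, z3 = m + 1 := ⟨z3 - 1, by omega⟩
  rw [show m1 + 1 + 1 = m1 + 2 from rfl, show m2 + 1 + 1 = m2 + 2 from rfl,
    show m3 + 1 + 1 = m3 + 2 from rfl, Del_eq_wt, Del_eq_wt, Del_eq_wt, psi_eq_wt, psi_eq_wt,
    psi_eq_wt]
  push_cast
  have c12 := cheb m1 m2
  have c13 := cheb m1 m3
  have c23 := cheb m2 m3
  have key :
      wt m1 / 2 * ((m2 : ℝ) + 1 + ((m3 : ℝ) + 1)) + wt m2 / 2 * ((m1 : ℝ) + 1 + ((m3 : ℝ) + 1))
          + wt m3 / 2 * ((m1 : ℝ) + 1 + ((m2 : ℝ) + 1))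
        - wt m1 * ((m1 : ℝ) + 1) - wt m2 * ((m2 : ℝ) + 1) - wt m3 * ((m3 : ℝ) + 1)
      = ((wt m1 - wt m2) * ((m2 : ℝ) - m1) + (wt m1 - wt m3) * ((m3 : ℝ) - m1)
          + (wt m2 - wt m3) * ((m3 : ℝ) - m2)) / 2 := by ring
  rw [key]
  positivity

/-! ## The drift inequality in a linear space of triples -/

section Abstract

variable {E τ : Type*} [DecidableEq E] (edge : τ → Finset E)

/-- The number of members of `T` containing `f`. -/
def cnt (T : Finset τ) (f : E) : ℕ := (T.filter (fun t => f ∈ edge t)).card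

/-- The members of `T` disjoint from `s`. -/
def cut (T : Finset τ) (s : τ) : Finset τ := T.filter (fun t => Disjoint (edge t) (edge s))

/-- Step 1: removing the triples that meet `s` from those at `f`. -/
lemma step_one (T : Finset τ) (s : τ) (f : E) :
    ((T.filter (fun t => f ∈ edge t ∧ ¬ Disjoint (edge t) (edge s))).card : ℝ)
        * Del (cnt edge T f)
      ≤ psi (cnt edge (cut edge T s) f) - psi (cnt edge T f) := by
  have hsplit : cnt edge T f = cnt edge (cut edge T s) f
      + (T.filter (fun t => f ∈ edge t ∧ ¬ Disjoint (edge t) (edge s))).card := by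
    unfold cnt cut
    rw [filter_filter, ← card_filter_add_card_filter_not
      (s := T.filter (fun t => f ∈ edge t)) (fun t => Disjoint (edge t) (edge s)),
      filter_filter, filter_filter]
    congr 2
    ext t
    simp only [mem_filter]
    tauto
  rw [hsplit]
  exact psi_convex _ _

/-- Step 2: the change of the potential on removing `s`, in terms of `Δ`. -/
lemma step_two (T : Finset τ) (X : Finset E) (s : τ) (hs : edge s ⊆ X) :
    (∑ f ∈ X \ edge s,
        ((T.filter (fun t => f ∈ edge t ∧ ¬ Disjoint (edge t) (edge s))).card : ℝ)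
          * Del (cnt edge T f))
        - ∑ f ∈ edge s, psi (cnt edge T f)
      ≤ (∑ f ∈ X \ edge s, psi (cnt edge (cut edge T s) f)) - ∑ f ∈ X, psi (cnt edge T f) := by
  have h1 : ∑ f ∈ X, psi (cnt edge T f)
      = ∑ f ∈ X \ edge s, psi (cnt edge T f) + ∑ f ∈ edge s, psi (cnt edge T f) :=
    (sum_sdiff hs).symm
  have h2 : ∑ f ∈ X \ edge s,
        ((T.filter (fun t => f ∈ edge t ∧ ¬ Disjoint (edge t) (edge s))).card : ℝ)
          * Del (cnt edge T f)
      ≤ ∑ f ∈ X \ edge s, (psi (cnt edge (cut edge T s) f) - psi (cnt edge T f)) :=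
    sum_le_sum (fun f _ => step_one edge T s f)
  rw [sum_sub_distrib] at h2
  rw [h1]
  linarith

/-- Step 3: the double count. -/
lemma step_three (T : Finset τ) (X : Finset E) (w : E → ℝ) (hsub : ∀ t ∈ T, edge t ⊆ X) :
    ∑ s ∈ T, ∑ f ∈ X \ edge s,
        ((T.filter (fun t => f ∈ edge t ∧ ¬ Disjoint (edge t) (edge s))).card : ℝ) * w f
      = ∑ t ∈ T, ∑ f ∈ edge t,
        ((T.filter (fun s => f ∉ edge s ∧ ¬ Disjoint (edge t) (edge s))).card : ℝ) * w f := by
  classical
  have hL : ∀ s ∈ T, ∑ f ∈ X \ edge s,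
        ((T.filter (fun t => f ∈ edge t ∧ ¬ Disjoint (edge t) (edge s))).card : ℝ) * w f
      = ∑ f ∈ X, ∑ t ∈ T,
          (if f ∉ edge s ∧ f ∈ edge t ∧ ¬ Disjoint (edge t) (edge s) then w f else 0) := by
    intro s _
    rw [sdiff_eq_filter, sum_filter]
    refine sum_congr rfl (fun f _ => ?_)
    by_cases hf : f ∈ edge s
    · simp [hf]
    · simp only [hf, not_false_eq_true, true_and, if_true]
      rw [← sum_filter, sum_const, nsmul_eq_mul]
  have hR : ∀ t ∈ T, ∑ f ∈ edge t,
        ((T.filter (fun s => f ∉ edge s ∧ ¬ Disjoint (edge t) (edge s))).card : ℝ) * w f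
      = ∑ f ∈ X, ∑ s ∈ T,
          (if f ∉ edge s ∧ f ∈ edge t ∧ ¬ Disjoint (edge t) (edge s) then w f else 0) := by
    intro t ht
    have hfil : edge t = X.filter (fun f => f ∈ edge t) := by
      ext f
      simp only [mem_filter]
      exact ⟨fun h => ⟨hsub t ht h, h⟩, fun h => h.2⟩
    refine (sum_congr hfil (fun _ _ => rfl)).trans ?_
    rw [sum_filter]
    refine sum_congr rfl (fun f _ => ?_)
    by_cases hf : f ∈ edge t
    · simp only [hf, if_true, true_and]
      rw [← sum_filter, sum_const, nsmul_eq_mul]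
    · simp [hf]
  rw [sum_congr rfl hL, sum_congr rfl hR]
  calc ∑ s ∈ T, ∑ f ∈ X, ∑ t ∈ T,
          (if f ∉ edge s ∧ f ∈ edge t ∧ ¬ Disjoint (edge t) (edge s) then w f else 0)
      = ∑ f ∈ X, ∑ s ∈ T, ∑ t ∈ T,
          (if f ∉ edge s ∧ f ∈ edge t ∧ ¬ Disjoint (edge t) (edge s) then w f else 0) := sum_comm
    _ = ∑ f ∈ X, ∑ t ∈ T, ∑ s ∈ T,
          (if f ∉ edge s ∧ f ∈ edge t ∧ ¬ Disjoint (edge t) (edge s) then w f else 0) :=
        sum_congr rfl (fun _ _ => sum_comm)
    _ = ∑ t ∈ T, ∑ f ∈ X, ∑ s ∈ T,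
          (if f ∉ edge s ∧ f ∈ edge t ∧ ¬ Disjoint (edge t) (edge s) then w f else 0) := sum_comm

/-- Step 4: lower bound for the number of triples missing `f` and meeting `t`. -/
lemma step_four (T : Finset τ)
    (hlin : ∀ t ∈ T, ∀ t' ∈ T, t ≠ t' → ∀ f g, f ∈ edge t → f ∈ edge t' → g ∈ edge t → g ∈ edge t' →
      f = g)
    (t : τ) (ht : t ∈ T) (f : E) (hf : f ∈ edge t) :
    ∑ g ∈ edge t, ((cnt edge T g : ℝ) - 1) - ((cnt edge T f : ℝ) - 1)
      ≤ ((T.filter (fun s => f ∉ edge s ∧ ¬ Disjoint (edge t) (edge s))).card : ℝ) := by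
  classical
  have hpart : ∀ g ∈ edge t,
      ((T.filter (fun s => g ∈ edge s)).erase t).card = cnt edge T g - 1 := by
    intro g hg
    rw [card_erase_of_mem (mem_filter.mpr ⟨ht, hg⟩)]
    rfl
  have hcast : ∀ g ∈ edge t,
      (((T.filter (fun s => g ∈ edge s)).erase t).card : ℝ) = (cnt edge T g : ℝ) - 1 := by
    intro g hg
    have h1 : 1 ≤ cnt edge T g := by
      unfold cnt
      exact card_pos.mpr ⟨t, mem_filter.mpr ⟨ht, hg⟩⟩
    rw [hpart g hg]
    push_cast [h1]
    rfl
  have hdisj : ((edge t).erase f : Set E).PairwiseDisjoint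
      (fun g => (T.filter (fun s => g ∈ edge s)).erase t) := by
    intro g hg g' hg' hgg'
    refine Finset.disjoint_left.mpr ?_
    intro s hs hs'
    simp only [mem_erase, mem_filter] at hs hs'
    simp only [coe_erase, Set.mem_sdiff, mem_coe] at hg hg'
    exact hgg' (hlin t ht s hs.2.1 hs.1.symm g g' hg.1 hs.2.2 hg'.1 hs'.2.2)
  have hsubset : ((edge t).erase f).biUnion (fun g => (T.filter (fun s => g ∈ edge s)).erase t)
      ⊆ T.filter (fun s => f ∉ edge s ∧ ¬ Disjoint (edge t) (edge s)) := by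
    intro s hs
    simp only [mem_biUnion, mem_erase, mem_filter] at hs
    obtain ⟨g, ⟨hgf, hgt⟩, hst, hsT, hgs⟩ := hs
    refine mem_filter.mpr ⟨hsT, ?_, ?_⟩
    · intro hfs
      exact hgf (hlin t ht s hsT hst.symm g f hgt hgs hf hfs)
    · intro hd
      exact (Finset.disjoint_left.mp hd hgt) hgs
  have hcard := card_le_card hsubset
  rw [card_biUnion hdisj] at hcard
  have hcard' : (∑ g ∈ (edge t).erase f, (((T.filter (fun s => g ∈ edge s)).erase t).card : ℝ))
      ≤ ((T.filter (fun s => f ∉ edge s ∧ ¬ Disjoint (edge t) (edge s))).card : ℝ) := by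
    exact_mod_cast hcard
  have hsum : ∑ g ∈ (edge t).erase f, (((T.filter (fun s => g ∈ edge s)).erase t).card : ℝ)
      = ∑ g ∈ (edge t).erase f, ((cnt edge T g : ℝ) - 1) :=
    sum_congr rfl (fun g hg => hcast g (mem_of_mem_erase hg))
  rw [hsum] at hcard'
  have herase := sum_erase_eq_sub (f := fun g => (cnt edge T g : ℝ) - 1) hf
  rw [herase] at hcard'
  exact hcard'

/-- Step 5: the term of one triple is nonnegative. -/
lemma step_five (T : Finset τ) (hcard : ∀ t ∈ T, (edge t).card = 3)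
    (hlin : ∀ t ∈ T, ∀ t' ∈ T, t ≠ t' → ∀ f g, f ∈ edge t → f ∈ edge t' → g ∈ edge t → g ∈ edge t' →
      f = g)
    (t : τ) (ht : t ∈ T) :
    0 ≤ ∑ f ∈ edge t,
          ((T.filter (fun s => f ∉ edge s ∧ ¬ Disjoint (edge t) (edge s))).card : ℝ)
            * Del (cnt edge T f)
        - ∑ f ∈ edge t, psi (cnt edge T f)
        + (if ∀ f ∈ edge t, cnt edge T f = 1 then 9 / 7 else 0) := by
  classical
  obtain ⟨a, b, c, hab, hac, hbc, hE⟩ := card_eq_three.mp (hcard t ht)
  have hpos : ∀ g ∈ edge t, ∃ z, cnt edge T g = z + 1 := by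
    intro g hg
    have h1 : 1 ≤ cnt edge T g := by
      unfold cnt
      exact card_pos.mpr ⟨t, mem_filter.mpr ⟨ht, hg⟩⟩
    exact ⟨cnt edge T g - 1, by omega⟩
  have ha : a ∈ edge t := by rw [hE]; simp
  have hb : b ∈ edge t := by rw [hE]; simp
  have hc : c ∈ edge t := by rw [hE]; simp
  obtain ⟨z1, hz1⟩ := hpos a ha
  obtain ⟨z2, hz2⟩ := hpos b hb
  obtain ⟨z3, hz3⟩ := hpos c hc
  have hm := fun f (hf : f ∈ edge t) => step_four edge T hlin t ht f hf
  have hZ : ∑ g ∈ edge t, ((cnt edge T g : ℝ) - 1) = (z1 : ℝ) + z2 + z3 := by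
    rw [hE, sum_insert (by simp [hab, hac]), sum_insert (by simp [hbc]), sum_singleton, hz1, hz2,
      hz3]
    push_cast
    ring
  have hma := hm a ha
  have hmb := hm b hb
  have hmc := hm c hc
  rw [hZ, hz1] at hma
  rw [hZ, hz2] at hmb
  rw [hZ, hz3] at hmc
  push_cast at hma hmb hmc
  have h1 : ((z2 : ℝ) + z3) * Del (z1 + 1) ≤
      ((T.filter (fun s => a ∉ edge s ∧ ¬ Disjoint (edge t) (edge s))).card : ℝ)
        * Del (z1 + 1) :=
    mul_le_mul_of_nonneg_right (by linarith) (Del_nonneg _)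
  have h2 : ((z1 : ℝ) + z3) * Del (z2 + 1) ≤
      ((T.filter (fun s => b ∉ edge s ∧ ¬ Disjoint (edge t) (edge s))).card : ℝ)
        * Del (z2 + 1) :=
    mul_le_mul_of_nonneg_right (by linarith) (Del_nonneg _)
  have h3 : ((z1 : ℝ) + z2) * Del (z3 + 1) ≤
      ((T.filter (fun s => c ∉ edge s ∧ ¬ Disjoint (edge t) (edge s))).card : ℝ)
        * Del (z3 + 1) :=
    mul_le_mul_of_nonneg_right (by linarith) (Del_nonneg _)
  have hsum1 : ∑ f ∈ edge t,
          ((T.filter (fun s => f ∉ edge s ∧ ¬ Disjoint (edge t) (edge s))).card : ℝ)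
            * Del (cnt edge T f)
      = ((T.filter (fun s => a ∉ edge s ∧ ¬ Disjoint (edge t) (edge s))).card : ℝ)
            * Del (z1 + 1)
        + ((T.filter (fun s => b ∉ edge s ∧ ¬ Disjoint (edge t) (edge s))).card : ℝ)
            * Del (z2 + 1)
        + ((T.filter (fun s => c ∉ edge s ∧ ¬ Disjoint (edge t) (edge s))).card : ℝ)
            * Del (z3 + 1) := by
    conv_lhs => rw [hE]
    rw [sum_insert (by simp [hab, hac]), sum_insert (by simp [hbc]), sum_singleton, hz1, hz2, hz3,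
      ← hE]
    ring
  have hsum2 : ∑ f ∈ edge t, psi (cnt edge T f) = psi (z1 + 1) + psi (z2 + 1) + psi (z3 + 1) := by
    rw [hE, sum_insert (by simp [hab, hac]), sum_insert (by simp [hbc]), sum_singleton, hz1, hz2,
      hz3]
    ring
  rw [hsum1, hsum2]
  by_cases hall : z1 = 0 ∧ z2 = 0 ∧ z3 = 0
  · obtain ⟨rfl, rfl, rfl⟩ := hall
    have hiso : ∀ f ∈ edge t, cnt edge T f = 1 := by
      intro f hf
      rw [hE] at hf
      simp only [mem_insert, mem_singleton] at hf
      rcases hf with rfl | rfl | rfl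
      · exact hz1
      · exact hz2
      · exact hz3
    rw [if_pos hiso]
    have hp : psi (0 + 1) = 3 / 7 := by simpa using psi_one
    rw [hp]
    have e1 := mul_nonneg (Nat.cast_nonneg
      (α := ℝ) (T.filter (fun s => a ∉ edge s ∧ ¬ Disjoint (edge t) (edge s))).card)
      (Del_nonneg (0 + 1))
    have e2 := mul_nonneg (Nat.cast_nonneg
      (α := ℝ) (T.filter (fun s => b ∉ edge s ∧ ¬ Disjoint (edge t) (edge s))).card)
      (Del_nonneg (0 + 1))
    have e3 := mul_nonneg (Nat.cast_nonneg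
      (α := ℝ) (T.filter (fun s => c ∉ edge s ∧ ¬ Disjoint (edge t) (edge s))).card)
      (Del_nonneg (0 + 1))
    linarith
  · have hnum := numeric z1 z2 z3 hall
    have hif : (0 : ℝ) ≤ (if ∀ f ∈ edge t, cnt edge T f = 1 then 9 / 7 else 0) := by
      split_ifs <;> norm_num
    nlinarith

/-- The drift inequality. -/
theorem drift (T : Finset τ) (X : Finset E) (hcard : ∀ t ∈ T, (edge t).card = 3)
    (hlin : ∀ t ∈ T, ∀ t' ∈ T, t ≠ t' → ∀ f g, f ∈ edge t → f ∈ edge t' → g ∈ edge t → g ∈ edge t' →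
      f = g)
    (hsub : ∀ t ∈ T, edge t ⊆ X) :
    0 ≤ ∑ s ∈ T, ((∑ f ∈ X \ edge s, psi (cnt edge (cut edge T s) f))
        + (if ∀ f ∈ edge s, cnt edge T f = 1 then 9 / 7 else 0)
        - ∑ f ∈ X, psi (cnt edge T f)) := by
  have h5 : 0 ≤ ∑ t ∈ T, (∑ f ∈ edge t,
          ((T.filter (fun s => f ∉ edge s ∧ ¬ Disjoint (edge t) (edge s))).card : ℝ)
            * Del (cnt edge T f)
        - ∑ f ∈ edge t, psi (cnt edge T f)
        + (if ∀ f ∈ edge t, cnt edge T f = 1 then 9 / 7 else 0)) :=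
    sum_nonneg (fun t ht => step_five edge T hcard hlin t ht)
  rw [sum_add_distrib, sum_sub_distrib,
    ← step_three edge T X (fun f => Del (cnt edge T f)) hsub] at h5
  have h2 : ∑ s ∈ T, ((∑ f ∈ X \ edge s,
        ((T.filter (fun t => f ∈ edge t ∧ ¬ Disjoint (edge t) (edge s))).card : ℝ)
          * Del (cnt edge T f))
        - ∑ f ∈ edge s, psi (cnt edge T f))
      ≤ ∑ s ∈ T, ((∑ f ∈ X \ edge s, psi (cnt edge (cut edge T s) f))
          - ∑ f ∈ X, psi (cnt edge T f)) :=
    sum_le_sum (fun s hs => step_two edge T X s (hsub s hs))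
  rw [sum_sub_distrib] at h2
  have h3 : ∑ s ∈ T, ((∑ f ∈ X \ edge s, psi (cnt edge (cut edge T s) f))
        + (if ∀ f ∈ edge s, cnt edge T f = 1 then 9 / 7 else 0)
        - ∑ f ∈ X, psi (cnt edge T f))
      = ∑ s ∈ T, ((∑ f ∈ X \ edge s, psi (cnt edge (cut edge T s) f))
          - ∑ f ∈ X, psi (cnt edge T f))
        + ∑ s ∈ T, (if ∀ f ∈ edge s, cnt edge T f = 1 then (9 / 7 : ℝ) else 0) := by
    rw [← sum_add_distrib]
    refine sum_congr rfl (fun s _ => ?_)
    ring
  rw [h3]
  linarith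

end Abstract

/-! ## Back to graphs -/

lemma mem_edges {n : ℕ} {t : Finset (Fin n)} {a b : Fin n} :
    s(a, b) ∈ edges t ↔ a ∈ t ∧ b ∈ t ∧ a ≠ b := by
  simp [edges, Sym2.mk_isDiag_iff, and_assoc]

lemma edges_linear {n : ℕ} {t t' : Finset (Fin n)} (h3 : t.card = 3) (h3' : t'.card = 3)
    (hne : t ≠ t') (f g : Sym2 (Fin n)) (hf : f ∈ edges t) (hf' : f ∈ edges t')
    (hg : g ∈ edges t) (hg' : g ∈ edges t') : f = g := by
  induction f with
  | _ a b =>
  induction g with
  | _ c d =>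
  obtain ⟨ha, hb, hab⟩ := mem_edges.mp hf
  obtain ⟨ha', hb', _⟩ := mem_edges.mp hf'
  obtain ⟨hc, hd, hcd⟩ := mem_edges.mp hg
  obtain ⟨hc', hd', _⟩ := mem_edges.mp hg'
  have key : ∀ x, x ∈ t → x ∈ t' → x ≠ a → x ≠ b → False := by
    intro x hx hx' hxa hxb
    have hS : ({a, b, x} : Finset (Fin n)).card = 3 :=
      card_eq_three.mpr ⟨a, b, x, hab, hxa.symm, hxb.symm, rfl⟩
    have e1 : ({a, b, x} : Finset (Fin n)) = t := by
      apply eq_of_subset_of_card_le
      · intro y hy
        simp only [mem_insert, mem_singleton] at hy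
        rcases hy with rfl | rfl | rfl <;> assumption
      · omega
    have e2 : ({a, b, x} : Finset (Fin n)) = t' := by
      apply eq_of_subset_of_card_le
      · intro y hy
        simp only [mem_insert, mem_singleton] at hy
        rcases hy with rfl | rfl | rfl <;> assumption
      · omega
    exact hne (e1.symm.trans e2)
  have hc2 : c = a ∨ c = b := by
    by_contra h
    push Not at h
    exact key c hc hc' h.1 h.2
  have hd2 : d = a ∨ d = b := by
    by_contra h
    push Not at h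
    exact key d hd hd' h.1 h.2
  rcases hc2 with rfl | rfl <;> rcases hd2 with rfl | rfl
  · exact absurd rfl hcd
  · rfl
  · exact Sym2.eq_swap
  · exact absurd rfl hcd

lemma card_of_mem_tri {n : ℕ} {G : Finset (Sym2 (Fin n))} {t : Finset (Fin n)}
    (ht : t ∈ tri G) : t.card = 3 :=
  (mem_powersetCard.mp (mem_filter.mp ht).1).2

lemma tri_sdiff {n : ℕ} (G : Finset (Sym2 (Fin n))) (s : Finset (Fin n)) :
    tri (G \ edges s) = cut edges (tri G) s := by
  ext t
  simp only [tri, cut, mem_filter, subset_sdiff]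
  tauto

lemma expF_eq {n : ℕ} (G : Finset (Sym2 (Fin n))) :
    expF G = if (tri G).Nonempty then
      (∑ t ∈ tri G, expF (G \ edges t)) / ((tri G).card : ℝ) else (G.card : ℝ) := by
  rw [expF]
  congr 2
  exact sum_attach (tri G) (fun t => expF (G \ edges t))

lemma expS_eq {n : ℕ} (G : Finset (Sym2 (Fin n))) :
    expS G = if (tri G).Nonempty then
      (∑ t ∈ tri G, (expS (G \ edges t) + if ∀ e ∈ edges t, load G e = 1 then 1 else 0)) /
        ((tri G).card : ℝ) else 0 := by
  rw [expS]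
  congr 2
  exact sum_attach (tri G)
    (fun t => expS (G \ edges t) + if ∀ e ∈ edges t, load G e = 1 then (1 : ℝ) else 0)

/-- The main inequality for every graph state. -/
theorem main_bound {n : ℕ} : ∀ (k : ℕ) (G : Finset (Sym2 (Fin n))), G.card = k →
    ∑ e ∈ G, psi (load G e) ≤ expF G + 9 / 7 * expS G := by
  intro k
  induction k using Nat.strong_induction_on with
  | _ k ih =>
    intro G hG
    by_cases hne : (tri G).Nonempty
    · rw [expF_eq, expS_eq, if_pos hne, if_pos hne]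
      have hT : (0 : ℝ) < ((tri G).card : ℝ) := by exact_mod_cast card_pos.mpr hne
      have hD := drift (edges (n := n)) (tri G) G (fun t ht => card_edges_of_mem_tri ht)
        (fun t ht t' ht' hne' f g h1 h2 h3 h4 =>
          edges_linear (card_of_mem_tri ht) (card_of_mem_tri ht') hne' f g h1 h2 h3 h4)
        (fun t ht => (mem_filter.mp ht).2)
      have hsum : 0 ≤ ∑ s ∈ tri G, (expF (G \ edges s)
            + 9 / 7 * (expS (G \ edges s) + if ∀ e ∈ edges s, load G e = 1 then 1 else 0)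
            - ∑ f ∈ G, psi (load G f)) := by
        refine hD.trans (sum_le_sum (fun s hs => ?_))
        have hlt := card_sdiff_edges_lt hs
        have hih := ih _ (hG ▸ hlt) (G \ edges s) rfl
        have hl : ∀ f, cnt edges (cut edges (tri G) s) f = load (G \ edges s) f := by
          intro f
          rw [← tri_sdiff]
          rfl
        have hcnt : ∀ e, cnt edges (tri G) e = load G e := fun _ => rfl
        simp only [hl, hcnt]
        split_ifs <;> linarith
      rw [sum_sub_distrib, sum_const, nsmul_eq_mul] at hsum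
      have hdiv : ((tri G).card : ℝ) * ∑ f ∈ G, psi (load G f)
          ≤ ∑ s ∈ tri G, (expF (G \ edges s)
            + 9 / 7 * (expS (G \ edges s) + if ∀ e ∈ edges s, load G e = 1 then 1 else 0)) := by
        linarith
      rw [sum_add_distrib, ← mul_sum] at hdiv
      have hgoal : (∑ t ∈ tri G, expF (G \ edges t)) / ((tri G).card : ℝ)
          + 9 / 7 * ((∑ t ∈ tri G, (expS (G \ edges t)
              + if ∀ e ∈ edges t, load G e = 1 then 1 else 0)) / ((tri G).card : ℝ))
          = ((∑ t ∈ tri G, expF (G \ edges t))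
            + 9 / 7 * (∑ t ∈ tri G, (expS (G \ edges t)
              + if ∀ e ∈ edges t, load G e = 1 then 1 else 0))) / ((tri G).card : ℝ) := by
        field_simp
      rw [hgoal, le_div_iff₀ hT]
      linarith
    · rw [expF_eq, expS_eq, if_neg hne, if_neg hne]
      have hempty : tri G = ∅ := not_nonempty_iff_eq_empty.mp hne
      have : ∀ e ∈ G, psi (load G e) = 1 := by
        intro e _
        simp [load, hempty, psi_zero]
      rw [sum_congr rfl this]
      simp

/-! ## The complete graph -/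

lemma tri_top (n : ℕ) : tri (edges (univ : Finset (Fin n))) = powersetCard 3 univ := by
  ext t
  simp only [tri, mem_filter, and_iff_left_iff_imp]
  intro _ e he
  induction e with
  | _ a b =>
    obtain ⟨_, _, hab⟩ := mem_edges.mp he
    exact mem_edges.mpr ⟨mem_univ a, mem_univ b, hab⟩

lemma load_top {n : ℕ} {a b : Fin n} (hab : a ≠ b) :
    load (edges (univ : Finset (Fin n))) s(a, b) = n - 2 := by
  have hfilter : (tri (edges (univ : Finset (Fin n)))).filter (fun t => s(a, b) ∈ edges t)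
      = (univ \ {a, b}).image (fun c => ({a, b, c} : Finset (Fin n))) := by
    ext t
    rw [tri_top]
    simp only [mem_filter, mem_powersetCard, mem_edges, mem_image, mem_sdiff, mem_univ, true_and,
      mem_insert, mem_singleton, not_or, subset_univ]
    constructor
    · rintro ⟨ht, ha, hb, _⟩
      have hex : ∃ c ∈ t, c ≠ a ∧ c ≠ b := by
        by_contra h
        push Not at h
        have hsub : t ⊆ {a, b} := by
          intro x hx
          simp only [mem_insert, mem_singleton]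
          by_cases hxa : x = a
          · exact Or.inl hxa
          · exact Or.inr (h x hx hxa)
        have hle := card_le_card hsub
        rw [card_pair hab] at hle
        omega
      obtain ⟨c, hc, hca, hcb⟩ := hex
      refine ⟨c, ⟨hca, hcb⟩, ?_⟩
      apply eq_of_subset_of_card_le
      · intro y hy
        simp only [mem_insert, mem_singleton] at hy
        rcases hy with rfl | rfl | rfl <;> assumption
      · rw [ht, card_eq_three.mpr ⟨a, b, c, hab, hca.symm, hcb.symm, rfl⟩]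
    · rintro ⟨c, ⟨hca, hcb⟩, rfl⟩
      refine ⟨card_eq_three.mpr ⟨a, b, c, hab, Ne.symm hca, Ne.symm hcb, rfl⟩, ?_, ?_, hab⟩
      · simp
      · simp
  have hinj : Set.InjOn (fun c => ({a, b, c} : Finset (Fin n))) (↑(univ \ {a, b}) : Set (Fin n)) := by
    intro c hc c' hc' h
    simp only [coe_sdiff, coe_univ, Set.mem_sdiff, Set.mem_univ, true_and, not_or, coe_insert,
      coe_singleton, Set.mem_insert_iff, Set.mem_singleton_iff] at hc hc'
    have hmem : c ∈ ({a, b, c'} : Finset (Fin n)) := by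
      have : c ∈ ({a, b, c} : Finset (Fin n)) := by simp
      simpa only [h] using this
    simp only [mem_insert, mem_singleton] at hmem
    rcases hmem with h1 | h1 | h1
    · exact absurd h1 hc.1
    · exact absurd h1 hc.2
    · exact h1
  rw [load, hfilter, card_image_of_injOn hinj, card_sdiff_of_subset (subset_univ _), card_univ,
    card_pair hab, Fintype.card_fin]

lemma sum_top (n : ℕ) :
    ∑ e ∈ edges (univ : Finset (Fin n)), psi (load (edges (univ : Finset (Fin n))) e)
      = (n.choose 2 : ℝ) * psi (n - 2) := by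
  have h : ∀ e ∈ edges (univ : Finset (Fin n)),
      psi (load (edges (univ : Finset (Fin n))) e) = psi (n - 2) := by
    intro e he
    induction e with
    | _ a b =>
      obtain ⟨_, _, hab⟩ := mem_edges.mp he
      rw [load_top hab]
  rw [sum_congr rfl h, sum_const, nsmul_eq_mul, card_edges, card_univ, Fintype.card_fin]

lemma psi_sq_lower (m : ℕ) : (3 / 7 : ℝ) ^ 2 ≤ psi (m + 1) ^ 2 * (2 * (m : ℝ) + 1) := by
  induction m with
  | zero =>
    rw [zero_add, psi_one]
    norm_num
  | succ m ih =>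
    rw [show m + 1 + 1 = m + 2 from rfl, psi_add_two]
    push_cast
    have h0 : (0 : ℝ) ≤ m := Nat.cast_nonneg m
    have h1 : (2 * (m : ℝ) + 1) ≤
        ((2 * (m : ℝ) + 2) / (2 * (m : ℝ) + 3)) ^ 2 * (2 * ((m : ℝ) + 1) + 1) := by
      have h3 : (2 * (m : ℝ) + 3) ≠ 0 := by positivity
      have h4 : ((2 * (m : ℝ) + 2) / (2 * (m : ℝ) + 3)) ^ 2 * (2 * ((m : ℝ) + 1) + 1)
          = (2 * (m : ℝ) + 2) ^ 2 / (2 * (m : ℝ) + 3) := by
        field_simp
        ring
      rw [h4, le_div_iff₀ (by positivity)]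
      nlinarith
    have h2 := sq_nonneg (psi (m + 1))
    calc (3 / 7 : ℝ) ^ 2 ≤ psi (m + 1) ^ 2 * (2 * (m : ℝ) + 1) := ih
      _ ≤ psi (m + 1) ^ 2 * (((2 * (m : ℝ) + 2) / (2 * (m : ℝ) + 3)) ^ 2
            * (2 * ((m : ℝ) + 1) + 1)) := mul_le_mul_of_nonneg_left h1 h2
      _ = _ := by ring

lemma psi_lower (m : ℕ) : (3 / 7 : ℝ) ≤ psi (m + 1) * Real.sqrt (2 * (m : ℝ) + 1) := by
  have h0 : (0 : ℝ) ≤ m := Nat.cast_nonneg m
  have hs : Real.sqrt (2 * (m : ℝ) + 1) ^ 2 = 2 * (m : ℝ) + 1 :=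
    Real.sq_sqrt (by positivity)
  have h1 := psi_sq_lower m
  have h2 := psi_pos (m + 1)
  have h3 := Real.sqrt_nonneg (2 * (m : ℝ) + 1)
  have h4 : (3 / 7 : ℝ) ^ 2 ≤ (psi (m + 1) * Real.sqrt (2 * (m : ℝ) + 1)) ^ 2 := by
    rw [mul_pow, hs]
    exact h1
  exact (sq_le_sq₀ (by norm_num) (by positivity)).mp h4

lemma complete_bound (n : ℕ) (hn : 3 ≤ n) :
    (3 / 7 : ℝ) * (n.choose 2 : ℝ) / Real.sqrt (2 * (n : ℝ) - 5)
      ≤ expF (edges (univ : Finset (Fin n))) + 9 / 7 * expS (edges (univ : Finset (Fin n))) := by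
  have h := main_bound _ (edges (univ : Finset (Fin n))) rfl
  rw [sum_top] at h
  refine le_trans ?_ h
  obtain ⟨m, rfl⟩ : ∃ m, n = m + 3 := ⟨n - 3, by omega⟩
  rw [show m + 3 - 2 = m + 1 by omega]
  have h5 : 2 * (((m + 3 : ℕ) : ℝ)) - 5 = 2 * (m : ℝ) + 1 := by
    push_cast
    ring
  rw [h5]
  have h0 : (0 : ℝ) ≤ m := Nat.cast_nonneg m
  have hsq : 0 < Real.sqrt (2 * (m : ℝ) + 1) := Real.sqrt_pos.mpr (by positivity)
  rw [div_le_iff₀ hsq]
  have h6 := psi_lower m
  have h7 : (0 : ℝ) ≤ ((m + 3).choose 2 : ℝ) := Nat.cast_nonneg _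
  nlinarith [mul_le_mul_of_nonneg_left h6 h7]

lemma order_bound (n : ℕ) (hn : 3 ≤ n) :
    (n : ℝ) * Real.sqrt (n : ℝ) / 10 ≤ (3 / 7 : ℝ) * (n.choose 2 : ℝ) / Real.sqrt (2 * (n : ℝ) - 5) := by
  have hn' : (3 : ℝ) ≤ n := by exact_mod_cast hn
  have hsq : 0 < Real.sqrt (2 * (n : ℝ) - 5) := Real.sqrt_pos.mpr (by linarith)
  rw [le_div_iff₀ hsq, Nat.cast_choose_two]
  have hprod : Real.sqrt (n : ℝ) * Real.sqrt (2 * (n : ℝ) - 5) ≤ 15 / 7 * ((n : ℝ) - 1) := by
    rw [← Real.sqrt_mul (by linarith)]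
    apply Real.sqrt_le_iff.mpr
    constructor
    · nlinarith
    · nlinarith
  have hn0 : (0 : ℝ) ≤ n := by linarith
  calc (n : ℝ) * Real.sqrt (n : ℝ) / 10 * Real.sqrt (2 * (n : ℝ) - 5)
      = (n : ℝ) / 10 * (Real.sqrt (n : ℝ) * Real.sqrt (2 * (n : ℝ) - 5)) := by ring
    _ ≤ (n : ℝ) / 10 * (15 / 7 * ((n : ℝ) - 1)) :=
        mul_le_mul_of_nonneg_left hprod (by positivity)
    _ = _ := by ring

/-- For every graph `G` on `Fin n`, the expected final number of edges `expF G` of the triangle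
removal process started from `G` and the expected number `expS G` of chosen triangles that are
isolated when chosen satisfy `expF G + (9/7) expS G ≥ ∑_{e ∈ G} ψ(load G e)`. For the complete
graph `K_n` (`edges univ`) with `n ≥ 3` this gives
`expF + (9/7) expS ≥ (3/7) C(n,2) / √(2n-5) ≥ n √n / 10`. -/
theorem result :
    (∀ (n : ℕ) (G : Finset (Sym2 (Fin n))),
      ∑ e ∈ G, psi (load G e) ≤ expF G + 9 / 7 * expS G) ∧
    (∀ n : ℕ, 3 ≤ n →
      (3 / 7 : ℝ) * (n.choose 2 : ℝ) / Real.sqrt (2 * (n : ℝ) - 5)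
        ≤ expF (edges (univ : Finset (Fin n))) + 9 / 7 * expS (edges (univ : Finset (Fin n)))) ∧
    (∀ n : ℕ, 3 ≤ n →
      (n : ℝ) * Real.sqrt (n : ℝ) / 10
        ≤ expF (edges (univ : Finset (Fin n))) + 9 / 7 * expS (edges (univ : Finset (Fin n)))) :=
  ⟨fun _ G => main_bound _ G rfl, complete_bound,
    fun n hn => (order_bound n hn).trans (complete_bound n hn)⟩

end Vale.Agent.Results.P046.FPlusIsolated
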